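import Crest.Agent.R246.B1.Mono

/-!
# Row 246, block B1: assembly of `StAC`
-/

set_option autoImplicit false
set_option linter.unusedSectionVars false

open MeasureTheory Metric Filter Topology Set Module
open scoped RealInnerProductSpace ENNReal ContDiff Real

noncomputable section

namespace Crest.Agent.R246.B1

variable {E : Type} [NormedAddCommGroup E] [InnerProductSpace ℝ E] [FiniteDimensional ℝ E]
  [MeasurableSpace E] [BorelSpace E]

/-- the estimates used in the limit -/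
structure AC (d : ℕ) (K : ℝ) (c : ℝ → ℝ) (ε : ℝ) (u : E → ℝ) : Prop where
  upper : ∀ p r, 0 < r → th d (vA ε u).fst p r ≤ K * En d ε u
  inv : ∀ p r, 0 < r → r ≤ 2 * ‖p‖ →
    ∫ y, gk d p r y / ‖y‖ ∂(vA ε u).fst ≤ K * En d ε u / ‖p‖
  low : ε ≤ 1 → ∀ τ, 0 < τ → ∀ z, z ≠ 0 → τ ≤ 1 - u z ^ 2 → c τ ≤ th d (vA ε u).fst z (ε * ‖z‖)
  mono : ∀ (p : E) (a b : ℝ), 0 < a → a ≤ b → b ≤ ‖p‖ →
    th d (vA ε u).fst p a + ∫ r in a..b, (∫ z, (1 - ‖z.2‖ ^ 2) * gk d p r z.1 ∂vA ε u) / r ≤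
      th d (vA ε u).fst p b + K * En d ε u * (b / ‖p‖)

theorem exists_AC {d : ℕ} (hE : finrank ℝ E = d + 1) (hd : 2 ≤ d) : ∃ K : ℝ, 1 ≤ K ∧
    ∃ c : ℝ → ℝ, (∀ τ, 0 < τ → 0 < c τ) ∧
      ∀ (ε : ℝ) (u : E → ℝ), 0 < ε → Crit ε u → AC d K c ε u := by
  obtain ⟨K₁, hK₁, h₁⟩ := inv_le hE hd
  obtain ⟨K₂, hK₂, h₂⟩ := mono_ac hE hd
  obtain ⟨c, hc, h₃⟩ := th_low hE hd
  have h2 : (0 : ℝ) < 2 ^ (d + 1) := by positivity
  refine ⟨2 ^ (d + 1) + 12 + K₁ + K₂, by linarith, c, hc, fun ε u hε h => ?_⟩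
  have hEn : 0 ≤ En d ε u := En_nonneg hε
  refine ⟨fun p r hr => (th_upper hE hd hε h p hr).trans ?_, fun p r hr hp => ?_,
    h₃ ε u hε h, fun p a b ha hab hb => (h₂ ε u hε h p a b ha hab hb).trans ?_⟩
  · exact mul_le_mul_of_nonneg_right (by linarith) hEn
  · have hp0 : p ≠ 0 := by
      rintro rfl
      simp at hp
      linarith
    refine (h₁ ε u hε h p r hr hp0).trans ?_
    gcongr
    linarith
  · have : 0 ≤ b / ‖p‖ := div_nonneg (ha.le.trans hab) (norm_nonneg _)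
    gcongr
    linarith

theorem stAC' : StAC E := by
  intro d hE hd
  obtain ⟨K, hK, c, hc, h⟩ := exists_AC hE hd
  have hn : 3 ≤ finrank ℝ E := by omega
  refine ⟨K, by linarith, c, hc, fun ε u hε hu => ?_⟩
  have := h ε u hε hu
  exact ⟨modica hn hε hu, fun y => ⟨norm_wv_le hn hε hu y, inner_wv hu y⟩,
    fun p r hr => integrable_mu hn hε hu p hr, fun r hr => th_zero hE hε hu hr,
    fun X L r hr hX h0 h1 => stress hn hε hu X L r hr hX h0 h1, this.upper, this.inv, this.low,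
    this.mono⟩

end Crest.Agent.R246.B1
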