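import Crest.Agent.R246.Defs

/-!
# Row 246, block B1: directional derivatives off the origin
-/

set_option autoImplicit false
set_option linter.unusedSectionVars false

open MeasureTheory Metric Filter Topology Set Module
open scoped RealInnerProductSpace ENNReal ContDiff Real

noncomputable section

namespace Crest.Agent.R246.B1

variable {E : Type} [NormedAddCommGroup E] [InnerProductSpace ℝ E] [FiniteDimensional ℝ E]
  [MeasurableSpace E] [BorelSpace E]

/-- directional derivative -/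
def D (v : E) (f : E → ℝ) (y : E) : ℝ := fderiv ℝ f y v

/-- a fixed orthonormal basis -/
def bs (i : Fin (finrank ℝ E)) : E := stdOrthonormalBasis ℝ E i

/-- smooth off the origin -/
def Sm (f : E → ℝ) : Prop := ContDiffOn ℝ ∞ f {0}ᶜ

/-- `⟪∇f, ∇g⟫` -/
def GG (f g : E → ℝ) (y : E) : ℝ := ∑ i, D (bs i) f y * D (bs i) g y

/-- `Δ f` -/
def LL (f : E → ℝ) (y : E) : ℝ := ∑ i, D (bs i) (D (bs i) f) y

theorem inner_gradient (f : E → ℝ) (y v : E) : ⟪gradient f y, v⟫ = D v f y := by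
  simp [D, gradient]

theorem trc_eq_sum (A : E →L[ℝ] E) : trc A = ∑ i, ⟪bs i, A (bs i)⟫ := by
  simp [trc, LinearMap.trace_eq_sum_inner _ (stdOrthonormalBasis ℝ E), bs]

theorem norm_bs (i : Fin (finrank ℝ E)) : ‖(bs i : E)‖ = 1 :=
  (stdOrthonormalBasis ℝ E).orthonormal.1 i

theorem sum_bs (v : E) : ∑ i, ⟪bs i, v⟫ • (bs i : E) = v := (stdOrthonormalBasis ℝ E).sum_repr' v

theorem sum_inner (a c : E) : ∑ i, ⟪bs i, a⟫ * ⟪bs i, c⟫ = ⟪a, c⟫ := by
  rw [← (stdOrthonormalBasis ℝ E).sum_inner_mul_inner a c]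
  exact Finset.sum_congr rfl fun i _ => by rw [real_inner_comm a]; rfl

theorem abs_trc_le (A : E →L[ℝ] E) : |trc A| ≤ finrank ℝ E * ‖A‖ := by
  rw [trc_eq_sum]
  refine (Finset.abs_sum_le_sum_abs _ _).trans ?_
  have : ∀ i ∈ (Finset.univ : Finset (Fin (finrank ℝ E))), |⟪bs i, A (bs i)⟫| ≤ ‖A‖ := fun i _ => by
    refine (abs_real_inner_le_norm _ _).trans ?_
    have := A.le_opNorm (bs i)
    rw [norm_bs] at this ⊢
    linarith
  simpa using Finset.sum_le_card_nsmul _ _ _ this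

theorem continuous_trc : Continuous (trc : (E →L[ℝ] E) → ℝ) := by
  have : (trc : (E →L[ℝ] E) → ℝ) = fun A => ∑ i, ⟪bs i, A (bs i)⟫ := funext trc_eq_sum
  rw [this]
  fun_prop

theorem D_eq_sum (v : E) (f : E → ℝ) (y : E) : D v f y = ∑ i, ⟪bs i, v⟫ * D (bs i) f y := by
  conv_lhs => rw [← sum_bs v]
  simp [D, map_sum]

theorem GG_eq (f g : E → ℝ) (y : E) : GG f g y = ⟪gradient f y, gradient g y⟫ := by
  rw [← sum_inner]
  exact Finset.sum_congr rfl fun i _ => by
    rw [real_inner_comm, inner_gradient, real_inner_comm, inner_gradient]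

theorem two_le_infty' : (2 : WithTop ℕ∞) ≤ ((⊤ : ℕ∞) : WithTop ℕ∞) := by
  exact WithTop.coe_le_coe.2 (le_top : (2 : ℕ∞) ≤ ⊤)

theorem two_le_infty : (1 : WithTop ℕ∞) + 1 ≤ ((⊤ : ℕ∞) : WithTop ℕ∞) := by
  rw [one_add_one_eq_two]
  exact two_le_infty'

theorem Sm.contDiffAt {f : E → ℝ} (hf : Sm f) {y : E} (hy : y ≠ 0) : ContDiffAt ℝ ∞ f y :=
  ContDiffOn.contDiffAt hf (isOpen_compl_singleton.mem_nhds hy)

theorem Sm.diff {f : E → ℝ} (hf : Sm f) {y : E} (hy : y ≠ 0) : DifferentiableAt ℝ f y :=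
  (hf.contDiffAt hy).differentiableAt (by simp)

theorem Sm.dir {f : E → ℝ} (hf : Sm f) (v : E) : Sm (D v f) := by
  exact (ContDiffOn.fderiv_of_isOpen hf isOpen_compl_singleton (by simp)).clm_apply
    contDiffOn_const

theorem Sm.LL_eq {f : E → ℝ} (hf : Sm f) {y : E} (hy : y ≠ 0) : LL f y = lap f y := by
  rw [lap, trc_eq_sum]
  refine Finset.sum_congr rfl fun i _ => ?_
  have h1 : DifferentiableAt ℝ (fderiv ℝ f) y :=
    ((hf.contDiffAt hy).fderiv_right (m := 1) two_le_infty).differentiableAt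
      one_ne_zero
  have h2 : DifferentiableAt ℝ (gradient f) y :=
    (InnerProductSpace.toDual ℝ E).symm.toContinuousLinearEquiv.differentiableAt.comp y h1
  have h3 : D (bs i) f = fun x => ⟪bs i, gradient f x⟫ := by
    ext x
    rw [real_inner_comm, inner_gradient]
  rw [D, h3, hess, fderiv_inner_apply ℝ (differentiableAt_const _) h2]
  simp

theorem D_congr {f g : E → ℝ} (h : ∀ y, y ≠ 0 → f y = g y) (v : E) {y : E} (hy : y ≠ 0) :
    D v f y = D v g y := by
  have : f =ᶠ[𝓝 y] g := by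
    filter_upwards [isOpen_compl_singleton.mem_nhds hy] with x hx using h x hx
  rw [D, D, this.fderiv_eq]

theorem Sm.D_comm {f : E → ℝ} (hf : Sm f) (v w : E) {y : E} (hy : y ≠ 0) :
    D v (D w f) y = D w (D v f) y := by
  have h1 : DifferentiableAt ℝ (fderiv ℝ f) y :=
    ((hf.contDiffAt hy).fderiv_right (m := 1) two_le_infty).differentiableAt
      one_ne_zero
  have h2 := (hf.contDiffAt hy).isSymmSndFDerivAt (by simpa using two_le_infty')
  unfold D
  rw [fderiv_clm_apply h1 (differentiableAt_const _), fderiv_clm_apply h1 (differentiableAt_const _)]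
  simpa using h2 v w

/-- second derivative test -/
theorem Sm.LL_nonpos {f : E → ℝ} (hf : Sm f) {y : E} (hy : y ≠ 0) (h : IsLocalMax f y) :
    LL f y ≤ 0 := by
  refine Finset.sum_nonpos fun i _ => ?_
  set v : E := bs i
  by_contra hpos
  push Not at hpos
  have hl : ∀ t : ℝ, HasDerivAt (fun t : ℝ => y + t • v) v t := fun t => by
    simpa using ((hasDerivAt_id t).smul_const v).const_add y
  have hc : ContinuousAt (fun t : ℝ => y + t • v) 0 := (hl 0).continuousAt
  have hne : ∀ᶠ t : ℝ in 𝓝 0, y + t • v ≠ 0 :=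
    hc.eventually (isOpen_compl_singleton.mem_nhds (by simpa using hy))
  have hd : ∀ g : E → ℝ, Sm g → ∀ t : ℝ, y + t • v ≠ 0 →
      HasDerivAt (fun t : ℝ => g (y + t • v)) (D v g (y + t • v)) t := fun g hg t ht =>
    (hg.diff ht).hasFDerivAt.comp_hasDerivAt t (hl t)
  have h1 : deriv (fun t : ℝ => f (y + t • v)) =ᶠ[𝓝 0] fun t => D v f (y + t • v) := by
    filter_upwards [hne] with t ht using (hd f hf t ht).deriv
  have h2 : deriv (deriv fun t : ℝ => f (y + t • v)) 0 = D v (D v f) y := by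
    rw [h1.deriv_eq, (hd _ (hf.dir v) 0 (by simpa using hy)).deriv]
    simp
  have hmax : IsLocalMax (fun t : ℝ => f (y + t • v)) 0 := by
    have h' : IsLocalMax f (y + (0 : ℝ) • v) := by simpa using h
    exact h'.comp_continuous (g := fun t : ℝ => y + t • v) hc
  have hmin := isLocalMin_of_deriv_deriv_pos (by rw [h2]; exact hpos) hmax.deriv_eq_zero
    (hd f hf 0 (by simpa using hy)).continuousAt
  have h3 : (fun t : ℝ => f (y + t • v)) =ᶠ[𝓝 0] fun _ => f (y + (0 : ℝ) • v) := by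
    filter_upwards [hmax, hmin] with t h1 h2 using le_antisymm h1 h2
  have h4 := h3.deriv.deriv_eq
  rw [h2] at h4
  simp at h4
  linarith

theorem D_mul {f g : E → ℝ} {y : E} (hf : DifferentiableAt ℝ f y) (hg : DifferentiableAt ℝ g y)
    (v : E) : D v (fun x => f x * g x) y = D v f y * g y + f y * D v g y := by
  rw [D, fderiv_fun_mul hf hg]
  simp [D]
  ring

theorem D_add {f g : E → ℝ} {y : E} (hf : DifferentiableAt ℝ f y) (hg : DifferentiableAt ℝ g y)
    (v : E) : D v (fun x => f x + g x) y = D v f y + D v g y := by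
  rw [D, fderiv_fun_add hf hg]
  simp [D]

theorem D_sub {f g : E → ℝ} {y : E} (hf : DifferentiableAt ℝ f y) (hg : DifferentiableAt ℝ g y)
    (v : E) : D v (fun x => f x - g x) y = D v f y - D v g y := by
  rw [D, fderiv_fun_sub hf hg]
  simp [D]

theorem D_const (a : ℝ) (v y : E) : D v (fun _ => a) y = 0 := by simp [D]

theorem D_const_mul {f : E → ℝ} {y : E} (hf : DifferentiableAt ℝ f y) (a : ℝ) (v : E) :
    D v (fun x => a * f x) y = a * D v f y := by
  rw [D_mul (differentiableAt_const a) hf, D_const]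
  ring

theorem D_sum {ι : Type} [Fintype ι] {f : ι → E → ℝ} {y : E} (hf : ∀ i, DifferentiableAt ℝ (f i) y)
    (v : E) : D v (fun x => ∑ i, f i x) y = ∑ i, D v (f i) y := by
  rw [D, fderiv_fun_sum fun i _ => hf i]
  simp [D]

theorem D_norm_sq (q v y : E) : D v (fun x => ‖x - q‖ ^ 2) y = 2 * ⟪y - q, v⟫ := by
  have := (((hasFDerivAt_id y).sub_const q).norm_sq).fderiv
  simp only [id] at this
  rw [D, this]
  simp [inner_sub_left]

theorem D_inner (q v y : E) : D v (fun x => ⟪x - q, v⟫) y = ‖v‖ ^ 2 := by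
  have h1 : DifferentiableAt ℝ (fun x : E => x - q) y := by fun_prop
  rw [D, fderiv_inner_apply ℝ h1 (differentiableAt_const _)]
  simp [fderiv_sub_const]

theorem Sm.mul {f g : E → ℝ} (hf : Sm f) (hg : Sm g) : Sm fun x => f x * g x :=
  ContDiffOn.mul hf hg

theorem Sm.add {f g : E → ℝ} (hf : Sm f) (hg : Sm g) : Sm fun x => f x + g x :=
  ContDiffOn.add hf hg

theorem Sm.sub {f g : E → ℝ} (hf : Sm f) (hg : Sm g) : Sm fun x => f x - g x :=
  ContDiffOn.sub hf hg

theorem sm_const (a : ℝ) : Sm fun _ : E => a := contDiffOn_const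

theorem Sm.sum {ι : Type} [Fintype ι] {f : ι → E → ℝ} (hf : ∀ i, Sm (f i)) :
    Sm fun x => ∑ i, f i x := ContDiffOn.sum fun i _ => hf i

theorem sm_norm_sq (q : E) : Sm fun x : E => ‖x - q‖ ^ 2 :=
  ((contDiff_id.sub contDiff_const).norm_sq ℝ).contDiffOn

theorem LL_congr {f g : E → ℝ} (h : ∀ y, y ≠ 0 → f y = g y) {y : E} (hy : y ≠ 0) :
    LL f y = LL g y :=
  Finset.sum_congr rfl fun _ _ => D_congr (fun _ hx => D_congr h _ hx) _ hy

theorem LL_const (a : ℝ) (y : E) : LL (fun _ => a) y = 0 := by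
  have : ∀ v : E, D v (fun _ => a) = fun _ => 0 := fun v => funext (D_const a v)
  simp [LL, this, D_const]

theorem Sm.LL_sub {f g : E → ℝ} (hf : Sm f) (hg : Sm g) {y : E} (hy : y ≠ 0) :
    LL (fun x => f x - g x) y = LL f y - LL g y := by
  simp only [LL, ← Finset.sum_sub_distrib]
  refine Finset.sum_congr rfl fun i _ => ?_
  rw [D_congr (g := fun x => D (bs i) f x - D (bs i) g x)
    (fun x hx => D_sub (hf.diff hx) (hg.diff hx) _) _ hy,
    D_sub ((hf.dir _).diff hy) ((hg.dir _).diff hy)]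

theorem Sm.LL_const_mul {f : E → ℝ} (hf : Sm f) (a : ℝ) {y : E} (hy : y ≠ 0) :
    LL (fun x => a * f x) y = a * LL f y := by
  simp only [LL, Finset.mul_sum]
  refine Finset.sum_congr rfl fun i _ => ?_
  rw [D_congr (g := fun x => a * D (bs i) f x) (fun x hx => D_const_mul (hf.diff hx) _ _) _ hy,
    D_const_mul ((hf.dir _).diff hy)]

theorem LL_sum {ι : Type} [Fintype ι] {f : ι → E → ℝ} (hf : ∀ i, Sm (f i)) {y : E} (hy : y ≠ 0) :
    LL (fun x => ∑ i, f i x) y = ∑ i, LL (f i) y := by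
  simp only [LL]
  rw [Finset.sum_comm]
  refine Finset.sum_congr rfl fun i _ => ?_
  rw [D_congr (g := fun x => ∑ j, D (bs i) (f j) x)
    (fun x hx => D_sum (fun j => (hf j).diff hx) _) _ hy, D_sum fun j => ((hf j).dir _).diff hy]

theorem LL_norm_sq (q y : E) : LL (fun x => ‖x - q‖ ^ 2) y = 2 * finrank ℝ E := by
  have : ∀ i, D (bs i) (D (bs i) fun x : E => ‖x - q‖ ^ 2) y = 2 := fun i => by
    rw [show D (bs i) (fun x : E => ‖x - q‖ ^ 2) = fun x => 2 * ⟪x - q, bs i⟫ from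
      funext (D_norm_sq q _), D_const_mul ((differentiableAt_fun_id.sub_const q).inner ℝ (differentiableAt_const _)),
      D_inner, norm_bs]
    norm_num
  simp [LL, this, mul_comm]

/-- the Laplacian commutes with derivatives -/
theorem Sm.LL_D {f : E → ℝ} (hf : Sm f) (v : E) {y : E} (hy : y ≠ 0) :
    LL (D v f) y = D v (LL f) y := by
  have : LL f = fun x => ∑ i, D (bs i) (D (bs i) f) x := rfl
  rw [this, D_sum fun i => ((hf.dir _).dir _).diff hy]
  refine Finset.sum_congr rfl fun i _ => ?_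
  rw [D_congr (g := D v (D (bs i) f)) (fun x hx => hf.D_comm _ _ hx) _ hy,
    (hf.dir _).D_comm _ _ hy]

theorem Sm.LL_mul {f g : E → ℝ} (hf : Sm f) (hg : Sm g) {y : E} (hy : y ≠ 0) :
    LL (fun x => f x * g x) y = f y * LL g y + g y * LL f y + 2 * GG f g y := by
  simp only [LL, GG, Finset.mul_sum, ← Finset.sum_add_distrib]
  refine Finset.sum_congr rfl fun i _ => ?_
  rw [D_congr (g := fun x => D (bs i) f x * g x + f x * D (bs i) g x)
    (fun x hx => D_mul (hf.diff hx) (hg.diff hx) _) _ hy,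
    D_add (((hf.dir _).mul hg).diff hy) ((hf.mul (hg.dir _)).diff hy),
    D_mul ((hf.dir _).diff hy) (hg.diff hy), D_mul (hf.diff hy) ((hg.dir _).diff hy)]
  ring

/-- degree of homogeneity drops by one -/
theorem D_hom {f : E → ℝ} {k : ℤ} (h : ∀ t : ℝ, 0 < t → ∀ y, f (t • y) = t ^ k * f y) (v : E) :
    ∀ t : ℝ, 0 < t → ∀ y, D v f (t • y) = t ^ (k - 1) * D v f y := by
  intro t ht y
  have h1 := fderiv_comp_smul (𝕜 := ℝ) (f := f) (x := y) t
  have h2 : (fun x => f (t • x)) = fun x => t ^ k • f x := funext fun x => h t ht x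
  have h3 : fderiv ℝ (fun x => t ^ k • f x) y = t ^ k • fderiv ℝ f y :=
    congrFun (fderiv_const_smul_field (t ^ k)) y
  rw [h2, h3] at h1
  have h4 := congrArg (fun A : E →L[ℝ] ℝ => A v) h1
  simp only [smul_apply, smul_eq_mul] at h4
  rw [zpow_sub_one₀ ht.ne', D, D]
  field_simp
  linarith

/-- Euler's identity -/
theorem euler {f : E → ℝ} {k : ℤ} (h : ∀ t : ℝ, 0 < t → ∀ y, f (t • y) = t ^ k * f y) {y : E}
    (hf : DifferentiableAt ℝ f y) : D y f y = k * f y := by
  have hl : HasDerivAt (fun t : ℝ => t • y) y 1 := by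
    simpa using (hasDerivAt_id (1 : ℝ)).smul_const y
  have h1 : HasDerivAt (fun t : ℝ => f (t • y)) (D y f y) 1 := by
    have hf' : HasFDerivAt f (fderiv ℝ f y) ((1 : ℝ) • y) := by simpa using hf.hasFDerivAt
    exact hf'.comp_hasDerivAt (1 : ℝ) hl
  have h2 : HasDerivAt (fun t : ℝ => t ^ k * f y) (k * f y) 1 := by
    simpa using (hasDerivAt_zpow k (1 : ℝ) (Or.inl one_ne_zero)).mul_const (f y)
  refine h1.unique (h2.congr_of_eventuallyEq ?_)
  filter_upwards [lt_mem_nhds (zero_lt_one' ℝ)] with t ht using h t ht y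

theorem hom_bound {f : E → ℝ} {k : ℤ} (h : ∀ t : ℝ, 0 < t → ∀ y, f (t • y) = t ^ k * f y)
    (hf : ContinuousOn f {0}ᶜ) : ∃ M : ℝ, 0 ≤ M ∧ ∀ y, y ≠ 0 → |f y| ≤ M * ‖y‖ ^ k := by
  obtain ⟨M, hM⟩ := (isCompact_sphere (0 : E) 1).exists_bound_of_continuousOn
    (hf.mono fun x hx => by
      rintro rfl
      simp at hx)
  refine ⟨max M 0, le_max_right _ _, fun y hy => ?_⟩
  have hn : 0 < ‖y‖ := norm_pos_iff.2 hy
  have h1 := h ‖y‖ hn (‖y‖⁻¹ • y)
  rw [smul_smul, mul_inv_cancel₀ hn.ne', one_smul] at h1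
  have h2 := hM (‖y‖⁻¹ • y) (by simp [norm_smul, hn.ne'])
  rw [h1, abs_mul, abs_of_pos (zpow_pos hn k), mul_comm]
  exact mul_le_mul_of_nonneg_right (h2.trans (le_max_left _ _)) (zpow_pos hn k).le

end Crest.Agent.R246.B1
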