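import Crest.Agent.R246.B2.Ker

/-!
# Row 246, block B1: more on the Gaussian kernel
-/

set_option autoImplicit false
set_option linter.unusedSectionVars false

open MeasureTheory Metric Filter Topology Set Module
open scoped RealInnerProductSpace ENNReal ContDiff Real

noncomputable section

namespace Crest.Agent.R246.B1

variable {E : Type} [NormedAddCommGroup E] [InnerProductSpace ℝ E] [FiniteDimensional ℝ E]
  [MeasurableSpace E] [BorelSpace E]

theorem gk_cmp (d : ℕ) {a r : ℝ} (ha : 0 < a) (hr : 0 < r) {p q y x : E} {c : ℝ}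
    (h : -‖y - p‖ ^ 2 / (2 * a ^ 2) ≤ c + -‖x - q‖ ^ 2 / (2 * r ^ 2)) :
    gk d p a y ≤ (r / a) ^ d * Real.exp c * gk d q r x := by
  have hs : 0 < √(2 * π) := by have := Real.pi_pos; positivity
  unfold gk
  rw [mul_mul_mul_comm, ← mul_pow, ← Real.exp_add,
    show r / a * (√(2 * π) * r)⁻¹ = (√(2 * π) * a)⁻¹ by field_simp]
  gcongr

/-- `|a+b|² ≤ 4|a|² + 2|b|²` -/
theorem gk_shift2 (d : ℕ) (p q : E) {r : ℝ} (hr : 0 < r) (y : E) :
    gk d p r y ≤ 2 ^ d * Real.exp (‖p - q‖ ^ 2 / (4 * r ^ 2)) * gk d q (2 * r) y := by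
  have := gk_cmp d hr (by positivity : 0 < 2 * r) (p := p) (q := q) (y := y) (x := y)
    (c := ‖p - q‖ ^ 2 / (4 * r ^ 2)) (by
      have h4 : ‖y - q‖ ≤ ‖y - p‖ + ‖p - q‖ := norm_sub_le_norm_sub_add_norm_sub y p q
      have h5 : ‖y - q‖ ^ 2 ≤ (‖y - p‖ + ‖p - q‖) ^ 2 := by gcongr
      have h6 : 0 ≤ (4 * ‖y - p‖ ^ 2 + 2 * ‖p - q‖ ^ 2 - ‖y - q‖ ^ 2) / (8 * r ^ 2) :=
        div_nonneg (by nlinarith [sq_nonneg (‖y - p‖ - ‖p - q‖), sq_nonneg ‖y - p‖]) (by positivity)
      rw [← sub_nonneg]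
      refine h6.trans (le_of_eq ?_)
      field_simp
      ring)
  rwa [mul_div_cancel_right₀ _ hr.ne'] at this

theorem gk_mono (d : ℕ) (p : E) {a r : ℝ} (ha : 0 < a) (har : a ≤ r) (y : E) :
    gk d p a y ≤ (r / a) ^ d * gk d p r y := by
  have := gk_cmp d ha (ha.trans_le har) (p := p) (q := p) (y := y) (x := y) (c := 0) (by
    rw [zero_add, neg_div, neg_div, neg_le_neg_iff]
    gcongr)
  simpa using this

theorem gk_smul (d : ℕ) (p : E) (r : ℝ) {t : ℝ} (ht : 0 < t) (y : E) :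
    gk d (t • p) (t * r) (t • y) = t⁻¹ ^ d * gk d p r y := by
  unfold gk
  rw [← smul_sub, norm_smul, Real.norm_eq_abs, abs_of_pos ht, ← mul_assoc (t⁻¹ ^ d), ← mul_pow]
  congr 2
  · rw [mul_left_comm, mul_inv]
  · rcases eq_or_ne r 0 with rfl | hr
    · simp
    · field_simp

/-- `|y-p| ≥ |p|/2`, `s^d exp(-s²/8)` is bounded (`s = |p|/r`; `Real.pow_div_factorial_le_exp`),
and `gk 0 |p| y ≥ (√(2π)|p|)^{-d} exp(-1/8)`. -/
theorem gk_near (d : ℕ) : ∃ K : ℝ, 0 < K ∧ ∀ (p y : E) (r : ℝ), 0 < r → p ≠ 0 →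
    ‖y‖ ≤ ‖p‖ / 2 → gk d p r y ≤ K * gk d 0 ‖p‖ y := by
  refine ⟨d.factorial * Real.exp 3, by positivity, fun p y r hr hp hy => ?_⟩
  have hpn := norm_pos_iff.2 hp
  have h1 := gk_cmp d hr hpn (p := p) (q := 0) (y := y) (x := y) (c := 3 - ‖p‖ / r) (by
    have h2 : ‖p‖ / 2 ≤ ‖y - p‖ := by linarith [norm_sub_norm_le p y, norm_sub_rev p y]
    have h3 : (‖p‖ / r) ^ 2 / 8 ≤ ‖y - p‖ ^ 2 / (2 * r ^ 2) := by
      calc _ = (‖p‖ / 2) ^ 2 / (2 * r ^ 2) := by field_simp; ring
        _ ≤ _ := by gcongr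
    have h4 : ‖y - 0‖ ^ 2 / (2 * ‖p‖ ^ 2) ≤ 1 := by
      rw [sub_zero, div_le_one (by positivity)]
      nlinarith [norm_nonneg y]
    rw [neg_div, neg_div]
    nlinarith [sq_nonneg (‖p‖ / r - 4)])
  refine h1.trans (mul_le_mul_of_nonneg_right ?_ (gk_pos d 0 hpn y).le)
  have h2 := Real.pow_div_factorial_le_exp (‖p‖ / r) (by positivity) d
  rw [div_le_iff₀ (by positivity)] at h2
  rw [Real.exp_sub, ← mul_div_assoc, div_le_iff₀ (Real.exp_pos _)]
  nlinarith [Real.exp_pos 3]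

/-- `|y-p|² ≥ |y|² + |p|²` -/
theorem gk_neg (d : ℕ) {p y : E} (h : ⟪p, y⟫ ≤ 0) {r : ℝ} (hr : 0 < r) :
    gk d p r y ≤ Real.exp (-‖p‖ ^ 2 / (2 * r ^ 2)) * gk d 0 r y := by
  have := gk_cmp d hr hr (p := p) (q := 0) (y := y) (x := y) (c := -‖p‖ ^ 2 / (2 * r ^ 2)) (by
    rw [← add_div, sub_zero, norm_sub_sq_real, real_inner_comm]
    gcongr
    linarith)
  simpa [hr.ne'] using this

/-- for `|y| ≥ 1/4` use the first term, otherwise `2^{-d} exp(3|y|²/2) ≤ 1/3` -/
theorem gk_div_le {d : ℕ} (hd : 2 ≤ d) (y : E) :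
    gk d 0 1 y / ‖y‖ ≤ 4 * gk d 0 1 y + 1 / 3 * (gk d 0 (1 / 2) y / ‖y‖) := by
  have a1 := gk_pos d (0 : E) one_pos y
  have a2 := gk_pos d (0 : E) (by norm_num : (0 : ℝ) < 1 / 2) y
  rcases le_total (1 / 4) ‖y‖ with hy | hy
  · refine le_add_of_le_of_nonneg ?_ (by positivity)
    calc _ ≤ gk d 0 1 y / (1 / 4) := by gcongr
      _ = _ := by ring
  · refine le_add_of_nonneg_of_le (by positivity) ?_
    rw [← mul_div_assoc]
    refine div_le_div_of_nonneg_right ?_ (norm_nonneg _)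
    refine (gk_cmp d one_pos (by norm_num : (0 : ℝ) < 1 / 2) (q := 0) (x := y) (c := 1 / 4) ?_).trans
      (mul_le_mul_of_nonneg_right ?_ a2.le)
    · rw [sub_zero]
      have : ‖y‖ ^ 2 ≤ 1 / 16 := by nlinarith [norm_nonneg y]
      norm_num
      linarith
    · have h1 : ((1 : ℝ) / 2 / 1) ^ d ≤ (1 / 2 / 1) ^ 2 :=
        pow_le_pow_of_le_one (by norm_num) (by norm_num) hd
      have h2 := Real.exp_bound_div_one_sub_of_interval (x := 1 / 4) (by norm_num) (by norm_num)
      calc _ ≤ ((1 : ℝ) / 2 / 1) ^ 2 * (1 / (1 - 1 / 4)) := by gcongr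
        _ = _ := by norm_num

/-- for `|y| ≤ η`: `gk 0 1 y ≤ (2π)^{-d/2} ≤ 2 η^d gk 0 η y` (`exp(1/2) ≤ 2`) -/
theorem gk_div_le' (d : ℕ) {η : ℝ} (hη : 0 < η) (y : E) :
    gk d 0 1 y / ‖y‖ ≤ gk d 0 1 y / η + 2 * η ^ d * (gk d 0 η y / ‖y‖) := by
  have a1 := gk_pos d (0 : E) one_pos y
  have a2 := gk_pos d (0 : E) hη y
  rcases le_total η ‖y‖ with hy | hy
  · refine le_add_of_le_of_nonneg ?_ (by positivity)
    gcongr
  · refine le_add_of_nonneg_of_le (by positivity) ?_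
    rw [← mul_div_assoc]
    refine div_le_div_of_nonneg_right ?_ (norm_nonneg _)
    refine (gk_cmp d one_pos hη (q := 0) (x := y) (c := 1 / 2) ?_).trans
      (mul_le_mul_of_nonneg_right ?_ a2.le)
    · have : ‖y - 0‖ ^ 2 / (2 * η ^ 2) ≤ 1 / 2 := by
        rw [sub_zero, div_le_iff₀ (by positivity)]
        nlinarith [norm_nonneg y]
      rw [neg_div, neg_div]
      have : 0 ≤ ‖y - 0‖ ^ 2 / (2 * 1 ^ 2) := by positivity
      linarith
    · have h2 := Real.exp_bound_div_one_sub_of_interval (x := 1 / 2) (by norm_num) (by norm_num)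
      calc _ ≤ (η / 1) ^ d * (1 / (1 - 1 / 2)) := by gcongr
        _ = _ := by
          rw [div_one]
          ring

/-- `‖f‖ / gk` is continuous with compact support -/
theorem exists_le_gk (d : ℕ) {F : Type} [NormedAddCommGroup F] {f : E → F} (hf : Continuous f)
    (hc : HasCompactSupport f) : ∃ L : ℝ, 0 ≤ L ∧ ∀ y, ‖f y‖ ≤ L * gk d 0 1 y := by
  have hg := gk_pos d (0 : E) one_pos
  obtain ⟨L, hL⟩ := (hc.norm.mul_right (f' := fun y => (gk d 0 1 y)⁻¹)).exists_bound_of_continuous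
    (hf.norm.mul ((continuous_gk d 0 1).inv₀ fun y => (hg y).ne'))
  refine ⟨max L 0, le_max_right _ _, fun y => ?_⟩
  have h1 : ‖f y‖ * (gk d 0 1 y)⁻¹ ≤ max L 0 :=
    (le_abs_self _).trans ((hL y).trans (le_max_left _ _))
  rwa [← div_eq_mul_inv, div_le_iff₀ (hg y)] at h1

/-- on `ball 0 1` use `integrableOn_ball_of_norm_le_rpow`, outside `integrable_gk` -/
theorem integrable_gk_div (d : ℕ) (p : E) {r : ℝ} (hr : 0 < r) {k : ℕ} (hk : k < finrank ℝ E) :
    Integrable fun y => gk d p r y / ‖y‖ ^ k := by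
  have hm : Measurable fun y : E => gk d p r y / ‖y‖ ^ k := by
    have := (continuous_gk d p r).measurable
    fun_prop
  have hg := gk_pos d p hr
  rw [← integrableOn_univ, ← union_compl_self (ball (0 : E) 1), integrableOn_union]
  constructor
  · refine integrableOn_ball_of_norm_le_rpow (by omega) (C := (√(2 * π) * r)⁻¹ ^ d) (α := k)
      (by exact_mod_cast hk) (Eventually.of_forall fun y => ?_) hm.aestronglyMeasurable
    have := hg y
    rw [Real.norm_eq_abs, abs_of_nonneg (by positivity), Real.rpow_neg (norm_nonneg _),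
      Real.rpow_natCast, div_eq_mul_inv]
    exact mul_le_mul_of_nonneg_right (B2.gk_le d p hr y) (by positivity)
  · refine (integrable_gk d p hr).integrableOn.mono' hm.aestronglyMeasurable
      ((ae_restrict_iff' measurableSet_ball.compl).2 (Eventually.of_forall fun y hy => ?_))
    have := hg y
    rw [Real.norm_eq_abs, abs_of_nonneg (by positivity)]
    exact div_le_self this.le (one_le_pow₀ (by simpa using hy))

/-- differentiation under the integral (`hasDerivAt_integral_of_dominated_loc_of_deriv_le`,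
`B2.hasDerivAt_gk`; on `(r/2, 2r)` the derivative is bounded by `C gk p (4r)`: `B2.gk_sq`,
`gk_mono`) -/
theorem hasDerivAt_int (d : ℕ) {α : Type} [MeasurableSpace α] (μ : Measure α) {f : α → E}
    (hf : Measurable f) {κ : α → ℝ} (hκ : Measurable κ) (h1 : ∀ᵐ z ∂μ, |κ z| ≤ 1) (p : E)
    (hint : ∀ r, 0 < r → Integrable (fun z => gk d p r (f z)) μ) {r : ℝ} (hr : 0 < r) :
    HasDerivAt (fun s => ∫ z, κ z * gk d p s (f z) ∂μ)
      (∫ z, κ z * ((‖f z - p‖ ^ 2 / r ^ 2 - d) / r * gk d p r (f z)) ∂μ) r := by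
  obtain ⟨K, hK, hsq⟩ := B2.gk_sq (E := E) d
  have hm : ∀ s, Measurable fun z => gk d p s (f z) := fun s =>
    (continuous_gk d p s).measurable.comp hf
  refine (hasDerivAt_integral_of_dominated_loc_of_deriv_le (s := Ioo (r / 2) (2 * r))
    (F := fun s z => κ z * gk d p s (f z))
    (F' := fun s z => κ z * ((‖f z - p‖ ^ 2 / s ^ 2 - d) / s * gk d p s (f z)))
    (bound := fun z => (K * 4 ^ d + d * 8 ^ d) / (r / 2) * gk d p (4 * r) (f z))
    (Ioo_mem_nhds (by linarith) (by linarith))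
    (Eventually.of_forall fun s => (hκ.mul (hm s)).aestronglyMeasurable)
    ((hint r hr).mono' (hκ.mul (hm r)).aestronglyMeasurable (h1.mono fun z hz => ?_))
    (Measurable.aestronglyMeasurable (by have := hm r; fun_prop)) (h1.mono fun z hz s hs => ?_)
    ((hint _ (by positivity)).const_mul _)
    (Eventually.of_forall fun z s hs =>
      (B2.hasDerivAt_gk d p (by linarith [hs.1]) (f z)).const_mul _)).2
  · have := gk_pos d p hr (f z)
    rw [Real.norm_eq_abs, abs_mul, abs_of_pos this]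
    exact mul_le_of_le_one_left this.le hz
  · have hs0 : 0 < s := by linarith [hs.1]
    have a0 := gk_pos d p hs0 (f z)
    have a1 := gk_pos d p (by positivity : 0 < 4 * r) (f z)
    have a2 : gk d p (2 * s) (f z) ≤ 4 ^ d * gk d p (4 * r) (f z) := by
      refine (gk_mono d p (by positivity) (by linarith [hs.2] : 2 * s ≤ 4 * r) _).trans ?_
      gcongr
      rw [div_le_iff₀ (by positivity)]
      linarith [hs.1]
    have a3 : gk d p s (f z) ≤ 8 ^ d * gk d p (4 * r) (f z) := by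
      refine (gk_mono d p hs0 (by linarith [hs.2] : s ≤ 4 * r) _).trans ?_
      gcongr
      rw [div_le_iff₀ hs0]
      linarith [hs.1]
    have a4 : ‖f z - p‖ ^ 2 / s ^ 2 * gk d p s (f z) ≤ K * (4 ^ d * gk d p (4 * r) (f z)) := by
      rw [div_mul_eq_mul_div, div_le_iff₀ (by positivity)]
      refine (hsq p s (f z) hs0).1.trans ?_
      rw [mul_right_comm]
      gcongr
    have a5 : |‖f z - p‖ ^ 2 / s ^ 2 - d| ≤ ‖f z - p‖ ^ 2 / s ^ 2 + d := by
      refine (abs_sub _ _).trans ?_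
      rw [abs_of_nonneg (by positivity), abs_of_nonneg (by positivity)]
    rw [Real.norm_eq_abs, abs_mul, abs_mul, abs_div, abs_of_pos a0, abs_of_pos hs0]
    calc _ ≤ 1 * ((‖f z - p‖ ^ 2 / s ^ 2 + d) / (r / 2) * gk d p s (f z)) := by
          gcongr
          exact hs.1.le
      _ = (‖f z - p‖ ^ 2 / s ^ 2 * gk d p s (f z) + d * gk d p s (f z)) / (r / 2) := by ring
      _ ≤ (K * (4 ^ d * gk d p (4 * r) (f z)) + d * (8 ^ d * gk d p (4 * r) (f z))) / (r / 2) := by
          gcongr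
      _ = _ := by ring

/-- `B2.gk_low` with `M = 1`, Markov -/
theorem ball_le_th (d : ℕ) : ∃ C : ℝ, 0 < C ∧ ∀ (μ : Measure E) (p : E) (r : ℝ), 0 < r →
    Integrable (gk d p r) μ → μ (closedBall p r) ≤ ENNReal.ofReal (C * r ^ d * th d μ p r) := by
  obtain ⟨k, hk, hlow⟩ := B2.gk_low (E := E) d 1
  refine ⟨k⁻¹, by positivity, fun μ p r hr hi => ?_⟩
  have h1 := mul_meas_ge_le_integral_of_nonneg
    (Eventually.of_forall fun y => (gk_pos d p hr y).le) hi (k * r⁻¹ ^ d)
  have h2 : μ {y | k * r⁻¹ ^ d ≤ gk d p r y} ≠ ⊤ := by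
    have := (hi.measure_norm_ge_lt_top (ε := k * r⁻¹ ^ d) (by positivity)).ne
    simpa only [Real.norm_eq_abs, abs_of_pos (gk_pos d p hr _)] using this
  calc μ (closedBall p r) ≤ μ {y | k * r⁻¹ ^ d ≤ gk d p r y} :=
        measure_mono fun y hy => hlow p r y hr (by simpa [dist_eq_norm] using hy)
    _ = ENNReal.ofReal (μ.real {y | k * r⁻¹ ^ d ≤ gk d p r y}) := (ENNReal.ofReal_toReal h2).symm
    _ ≤ _ := by
        refine ENNReal.ofReal_le_ofReal ?_
        rw [← le_div_iff₀' (by positivity)] at h1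
        refine h1.trans (le_of_eq ?_)
        rw [th, inv_pow]
        field_simp

theorem locFin {d : ℕ} {μ : Measure E} (h : ∀ p, Integrable (gk d p 1) μ) :
    IsLocallyFiniteMeasure μ := by
  obtain ⟨C, -, hC⟩ := ball_le_th (E := E) d
  exact ⟨fun p => ⟨closedBall p 1, closedBall_mem_nhds p one_pos,
    (hC μ p 1 one_pos (h p)).trans_lt ENNReal.ofReal_lt_top⟩⟩

/-- `B2.gk_le` on the ball, `B2.gk_tail` outside -/
theorem th_le_ball (d : ℕ) {η : ℝ} (hη : 0 < η) : ∃ L : ℝ, 1 ≤ L ∧ ∀ (μ : Measure E) (p : E) (r : ℝ),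
    0 < r → Integrable (gk d p r) μ → Integrable (gk d p (2 * r)) μ →
      th d μ p r ≤ r⁻¹ ^ d * μ.real (closedBall p (L * r)) + η * th d μ p (2 * r) := by
  obtain ⟨L, hL, htail⟩ := B2.gk_tail (E := E) d hη
  obtain ⟨k, hk, hlow⟩ := B2.gk_low (E := E) d L
  refine ⟨L, hL, fun μ p r hr h1 h2 => ?_⟩
  have hfin : μ (closedBall p (L * r)) ≠ ⊤ := by
    refine ((measure_mono fun y hy => ?_).trans_lt
      (h1.measure_norm_ge_lt_top (ε := k * r⁻¹ ^ d) (by positivity))).ne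
    rw [mem_ofPred_eq, Real.norm_eq_abs, abs_of_pos (gk_pos d p hr _)]
    exact hlow p r y hr (by simpa [dist_eq_norm] using hy)
  have i1 : Integrable ((closedBall p (L * r)).indicator fun _ => r⁻¹ ^ d) μ :=
    (integrable_indicator_iff measurableSet_closedBall).2 (integrableOn_const hfin)
  have h3 := integral_mono h1 (i1.add (h2.const_mul η)) fun y => by
    have a1 := gk_pos d p (by positivity : 0 < 2 * r) y
    simp only [Pi.add_apply]
    by_cases hy : y ∈ closedBall p (L * r)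
    · rw [indicator_of_mem hy]
      refine le_add_of_le_of_nonneg ((B2.gk_le d p hr y).trans ?_) (by positivity)
      have : 1 ≤ √(2 * π) := Real.one_le_sqrt.2 (by linarith [Real.pi_gt_three])
      gcongr
      nlinarith
    · rw [indicator_of_notMem hy, zero_add]
      rw [mem_closedBall, dist_eq_norm] at hy
      exact htail p r y hr (not_le.1 hy).le
  rw [integral_add' i1 (h2.const_mul η), integral_indicator_const _ measurableSet_closedBall,
    integral_const_mul, smul_eq_mul, mul_comm] at h3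
  exact h3

theorem th_nonneg (d : ℕ) (μ : Measure E) (p : E) {r : ℝ} (hr : 0 < r) : 0 ≤ th d μ p r :=
  integral_nonneg fun y => (gk_pos d p hr y).le

theorem integral_fst (V : Measure (E × E)) {f : E → ℝ} (hf : Measurable f) :
    ∫ y, f y ∂V.fst = ∫ z, f z.1 ∂V :=
  integral_map measurable_fst.aemeasurable hf.aestronglyMeasurable

theorem integrable_fst (V : Measure (E × E)) {f : E → ℝ} (hf : Measurable f) :
    Integrable f V.fst ↔ Integrable (fun z => f z.1) V :=
  integrable_map_measure hf.aestronglyMeasurable measurable_fst.aemeasurable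

end Crest.Agent.R246.B1
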