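import Crest.Agent.R246.B1.Gk
import Crest.Agent.R246.B1.Calc

/-!
# Row 246, block B1: integration by parts against functions of degree -1
-/

set_option autoImplicit false
set_option linter.unusedSectionVars false

open MeasureTheory Metric Filter Topology Set Module
open scoped RealInnerProductSpace ENNReal ContDiff Real

noncomputable section

namespace Crest.Agent.R246.B1

variable {E : Type} [NormedAddCommGroup E] [InnerProductSpace ℝ E] [FiniteDimensional ℝ E]
  [MeasurableSpace E] [BorelSpace E]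

/-- `f` is differentiable off `0`.  Cut off with `χ_k y = 1 - β (k • y)`, `β : ContDiffBump 0`
(`|Dχ_k y| ≤ M/|y|`, eventually `0`), `integral_mul_fderiv_eq_neg_fderiv_mul_of_integrable`,
dominated convergence. -/
theorem integral_D_eq_zero {f : E → ℝ} (hf : ∀ y, y ≠ 0 → DifferentiableAt ℝ f y) (v : E)
    (h0 : Integrable f) (h1 : Integrable fun y => f y / ‖y‖) (h2 : Integrable (D v f)) :
    ∫ y, D v f y = 0 := by
  rcases subsingleton_or_nontrivial E with hE | hE
  · simp [D, Subsingleton.elim v 0]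
  let β : ContDiffBump (0 : E) := ⟨1, 2, one_pos, one_lt_two⟩
  have hβ : ContDiff ℝ 1 β := β.contDiff
  have hβd : Differentiable ℝ β := hβ.differentiable one_ne_zero
  have hβc : Continuous fun x => fderiv ℝ β x v := by
    have := hβ.continuous_fderiv one_ne_zero
    fun_prop
  obtain ⟨M, hM⟩ := ((β.hasCompactSupport.fderiv_apply ℝ v).mul_left
    (f := fun x : E => ‖x‖)).exists_bound_of_continuous (continuous_norm.mul hβc)
  set χ : ℕ → E → ℝ := fun k y => 1 - β (((k : ℝ) + 1) • y) with hχ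
  have hχd : ∀ k, Differentiable ℝ (χ k) := fun k => by
    simp only [hχ]
    fun_prop
  have hD : ∀ k y, fderiv ℝ (χ k) y v = -((k + 1) * fderiv ℝ β (((k : ℝ) + 1) • y) v) := fun k y => by
    simp only [hχ]
    rw [fderiv_const_sub, fderiv_comp_smul]
    simp
  have hχ1 : ∀ k y, |χ k y| ≤ 1 := fun k y =>
    abs_le.2 ⟨by linarith [β.le_one (x := ((k : ℝ) + 1) • y)],
      by linarith [β.nonneg (x := ((k : ℝ) + 1) • y)]⟩
  have hne : ∀ᵐ y : E, y ≠ 0 := compl_mem_ae_iff.2 (measure_singleton (0 : E))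
  have hb : ∀ k, ∀ᵐ y : E, ‖fderiv ℝ (χ k) y v * f y‖ ≤ M * ‖f y / ‖y‖‖ := fun k =>
    hne.mono fun y hy => by
      have a0 := norm_pos_iff.2 hy
      have a1 := hM (((k : ℝ) + 1) • y)
      simp only [Pi.mul_apply, norm_mul, norm_norm, norm_smul] at a1
      rw [hD, norm_mul, norm_neg, norm_mul, norm_div, norm_norm, ← mul_div_assoc, le_div_iff₀ a0]
      nlinarith [mul_le_mul_of_nonneg_right a1 (norm_nonneg (f y))]
  have hm : ∀ k, AEStronglyMeasurable (fun y => fderiv ℝ (χ k) y v * f y) volume := fun k =>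
    (measurable_fderiv_apply_const ℝ _ v).aestronglyMeasurable.mul h0.1
  have hbd : ∀ k, ∀ g : E → ℝ, ∀ᵐ y : E, ‖χ k y * g y‖ ≤ ‖g y‖ := fun k g =>
    Eventually.of_forall fun y => by
      rw [norm_mul]
      exact mul_le_of_le_one_left (norm_nonneg _) (hχ1 k y)
  have key : ∀ k, ∫ y, χ k y * D v f y = -∫ y, fderiv ℝ (χ k) y v * f y := fun k =>
    integral_mul_fderiv_eq_neg_fderiv_mul_of_integrable
      ((h1.norm.const_mul M).mono' (hm k) (hb k))
      (h2.norm.mono' ((hχd k).continuous.aestronglyMeasurable.mul h2.1) (hbd k _))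
      (h0.norm.mono' ((hχd k).continuous.aestronglyMeasurable.mul h0.1) (hbd k _))
      (fun x _ => hχd k x) fun x hx => hf x fun hx0 => by
        rw [hx0] at hx
        refine notMem_tsupport_iff_eventuallyEq.2 ?_ hx
        have hc : Continuous fun y : E => ((k : ℝ) + 1) • y := by fun_prop
        have := (hc.tendsto' 0 0 (smul_zero _)).eventually β.eventuallyEq_one
        filter_upwards [this] with y hy
        simp [hχ, hy]
  have hfar : ∀ y : E, y ≠ 0 → ∀ᶠ k : ℕ in atTop, ((k : ℝ) + 1) • y ∉ tsupport β := fun y hy => by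
    have a0 := norm_pos_iff.2 hy
    filter_upwards [tendsto_natCast_atTop_atTop.eventually (eventually_ge_atTop (2 / ‖y‖))] with k hk
    rw [β.tsupport_eq, mem_closedBall_zero_iff, norm_smul, Real.norm_eq_abs,
      abs_of_pos (by positivity), not_le]
    rw [div_le_iff₀ a0] at hk
    change 2 < _
    linarith
  have t1 := tendsto_integral_of_dominated_convergence (F := fun k y => χ k y * D v f y)
    (f := D v f) _ (fun k => (hχd k).continuous.aestronglyMeasurable.mul h2.1) h2.norm
    (fun k => hbd k _) (hne.mono fun y hy => tendsto_const_nhds.congr' ((hfar y hy).mono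
      fun k hk => by simp [hχ, image_eq_zero_of_notMem_tsupport hk]))
  have t2 := tendsto_integral_of_dominated_convergence
    (F := fun k y => fderiv ℝ (χ k) y v * f y) (f := fun _ => 0) _ hm (h1.norm.const_mul M) hb
    (hne.mono fun y hy => tendsto_const_nhds.congr' ((hfar y hy).mono
      fun k hk => by simp [hD, fderiv_of_notMem_tsupport ℝ hk]))
  simp only [key] at t1
  simpa using tendsto_nhds_unique t1 t2.neg

/-- `|T| ≤ M/|y|`, `|D T| ≤ M/|y|²` (`hom_bound`, `D_hom`), `integrable_gk_div`,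
`integral_D_eq_zero` for `T φ` -/
theorem ibp_hom {d : ℕ} (hn : 3 ≤ finrank ℝ E) {T : E → ℝ} (hT : Sm T)
    (h : ∀ t : ℝ, 0 < t → ∀ y, T (t • y) = t ^ (-1 : ℤ) * T y) {φ : E → ℝ} (hφ : ContDiff ℝ 1 φ)
    {L r : ℝ} (hr : 0 < r) (h0 : ∀ y, |φ y| ≤ L * gk d 0 r y) (v : E)
    (h1 : ∀ y, |D v φ y| ≤ L * gk d 0 r y) :
    Integrable (fun y => T y * D v φ y) ∧ Integrable (fun y => D v T y * φ y) ∧
      ∫ y, T y * D v φ y = -∫ y, D v T y * φ y := by
  have : Nontrivial E := Module.nontrivial_of_finrank_pos (R := ℝ) (by omega)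
  have hne : ∀ᵐ y : E, y ≠ 0 := compl_mem_ae_iff.2 (measure_singleton (0 : E))
  obtain ⟨M₁, hM₁, b1⟩ := hom_bound h hT.continuousOn
  obtain ⟨M₂, hM₂, b2⟩ := hom_bound (D_hom h v) (hT.dir v).continuousOn
  have mT : Measurable T := measurable_of_continuousOn_compl_singleton 0 hT.continuousOn
  have mD : Measurable (D v T) := measurable_fderiv_apply_const ℝ _ v
  have mφ : Measurable φ := hφ.continuous.measurable
  have mψ : Measurable (D v φ) := measurable_fderiv_apply_const ℝ _ v
  have aux : ∀ (S ψ : E → ℝ) (M : ℝ) (k : ℕ), k ≤ 2 → Measurable S → Measurable ψ → 0 ≤ M →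
      (∀ y, y ≠ 0 → |S y| ≤ M / ‖y‖ ^ k) → (∀ y, |ψ y| ≤ L * gk d 0 r y) →
      Integrable fun y => S y * ψ y := fun S ψ M k hk m1 m2 hM c1 c2 =>
    ((integrable_gk_div d 0 hr (k := k) (by omega)).const_mul (M * L)).mono'
      (m1.mul m2).aestronglyMeasurable (hne.mono fun y hy => by
        rw [Real.norm_eq_abs, abs_mul]
        calc _ ≤ M / ‖y‖ ^ k * (L * gk d 0 r y) :=
              mul_le_mul (c1 y hy) (c2 y) (abs_nonneg _) (by positivity)
          _ = _ := by ring)
  have c1 : ∀ y, y ≠ 0 → |T y| ≤ M₁ / ‖y‖ ^ 1 := fun y hy => by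
    simpa [div_eq_mul_inv] using b1 y hy
  have i1 := aux T (D v φ) M₁ 1 one_le_two mT mψ hM₁ c1 h1
  have i2 := aux (D v T) φ M₂ 2 le_rfl mD mφ hM₂ (fun y hy => by
    have := b2 y hy
    rwa [show (-1 - 1 : ℤ) = -2 by norm_num, zpow_neg, zpow_ofNat, ← div_eq_mul_inv] at this) h0
  have i3 := aux T φ M₁ 1 one_le_two mT mφ hM₁ c1 h0
  have i4 := aux (fun y => T y / ‖y‖) φ M₁ 2 le_rfl (by fun_prop) mφ hM₁ (fun y hy => by
    have a0 := norm_pos_iff.2 hy
    rw [abs_div, abs_of_pos a0, sq, ← div_div]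
    gcongr
    simpa using c1 y hy) h0
  have hφd := hφ.differentiable one_ne_zero
  have e1 : D v (fun y => T y * φ y) =ᵐ[volume] fun y => D v T y * φ y + T y * D v φ y :=
    hne.mono fun y hy => D_mul (hT.diff hy) (hφd y) v
  have key := integral_D_eq_zero (f := fun y => T y * φ y)
    (fun y hy => (hT.diff hy).fun_mul (hφd y)) v i3
    (i4.congr (Eventually.of_forall fun y => by simp only; ring)) ((i2.add i1).congr e1.symm)
  rw [integral_congr_ae e1, integral_add i2 i1] at key
  exact ⟨i1, i2, by linarith⟩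

end Crest.Agent.R246.B1
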