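import Crest.Agent.R246.B1.AC

/-!
# Row 246, block B1: the limit varifold, densities
-/

set_option autoImplicit false
set_option linter.unusedSectionVars false

open MeasureTheory Metric Filter Topology Set Module
open scoped RealInnerProductSpace ENNReal ContDiff Real

noncomputable section

namespace Crest.Agent.R246.B1

variable {E : Type} [NormedAddCommGroup E] [InnerProductSpace ℝ E] [FiniteDimensional ℝ E]
  [MeasurableSpace E] [BorelSpace E]

/-- the ultrafilter -/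
abbrev UU : Filter ℕ := (hyperfilter ℕ : Ultrafilter ℕ)

/-- data of the limit -/
structure LD (d : ℕ) (K : ℝ) (c : ℝ → ℝ) (w : ℝ) (ε : ℕ → ℝ) (u : ℕ → E → ℝ)
    (V : Measure (E × E)) : Prop where
  dim : finrank ℝ E = d + 1
  two : 2 ≤ d
  K1 : 1 ≤ K
  cpos : ∀ τ, 0 < τ → 0 < c τ
  wpos : 0 < w
  pos : ∀ j, 0 < ε j
  crit : ∀ j, Crit (ε j) (u j)
  ac : ∀ j, AC d K c (ε j) (u j)
  eps : Tendsto ε UU (𝓝 0)
  en : Tendsto (fun j => En d (ε j) (u j)) UU (𝓝 w)
  le1 : ∀ᵐ z ∂V, ‖z.2‖ ≤ 1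
  integ : ∀ p r, 0 < r → Integrable (gk d p r) V.fst
  conv : ∀ (φ : E × E → ℝ) (L r : ℝ), 0 < r → Continuous φ →
    (∀ z : E × E, ‖z.2‖ ≤ 1 → |φ z| ≤ L * gk d 0 r z.1) →
    Tendsto (fun j => ∫ z, φ z ∂vA (ε j) (u j)) UU (𝓝 (∫ z, φ z ∂V))

variable {d : ℕ} {K : ℝ} {c : ℝ → ℝ} {w : ℝ} {ε : ℕ → ℝ} {u : ℕ → E → ℝ} {V : Measure (E × E)}

theorem LD.three (h : LD d K c w ε u V) : 3 ≤ finrank ℝ E := by
  have := h.dim
  have := h.two
  omega

/-- arbitrary centre (`gk_shift2`) -/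
theorem LD.conv' (h : LD d K c w ε u V) (φ : E × E → ℝ) (L : ℝ) (p : E) (r : ℝ) (hr : 0 < r)
    (hφ : Continuous φ) (hb : ∀ z : E × E, ‖z.2‖ ≤ 1 → |φ z| ≤ L * gk d p r z.1) :
    Tendsto (fun j => ∫ z, φ z ∂vA (ε j) (u j)) UU (𝓝 (∫ z, φ z ∂V)) := by
  refine h.conv φ (|L| * (2 ^ d * Real.exp (‖p - 0‖ ^ 2 / (4 * r ^ 2)))) (2 * r) (by positivity) hφ
    fun z hz => (hb z hz).trans ?_
  rw [mul_assoc]
  exact mul_le_mul (le_abs_self L) (gk_shift2 d p 0 hr z.1) (gk_pos d p hr _).le (abs_nonneg L)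

theorem LD.integrable (h : LD d K c w ε u V) {φ : E × E → ℝ} {L : ℝ} {p : E} {r : ℝ} (hr : 0 < r)
    (hφ : Continuous φ) (hb : ∀ z : E × E, ‖z.2‖ ≤ 1 → |φ z| ≤ L * gk d p r z.1) :
    Integrable φ V := by
  exact (((integrable_fst _ (continuous_gk d p r).measurable).1 (h.integ p r hr)).const_mul L).mono'
    hφ.aestronglyMeasurable (h.le1.mono hb)

theorem LD.th_tendsto (h : LD d K c w ε u V) (p : E) {r : ℝ} (hr : 0 < r) :
    Tendsto (fun j => th d (vA (ε j) (u j)).fst p r) UU (𝓝 (th d V.fst p r)) := by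
  simp only [th, integral_fst _ (continuous_gk d p r).measurable]
  exact h.conv' _ 1 p r hr ((continuous_gk d p r).comp continuous_fst) fun z _ => by
    rw [abs_of_pos (gk_pos d p hr _), one_mul]

theorem LD.th_zero (h : LD d K c w ε u V) {r : ℝ} (hr : 0 < r) : th d V.fst 0 r = w := by
  exact tendsto_nhds_unique (h.th_tendsto 0 hr)
    (h.en.congr fun j => (B1.th_zero h.dim (h.pos j) (h.crit j) hr).symm)

theorem LD.th_le (h : LD d K c w ε u V) (p : E) {r : ℝ} (hr : 0 < r) :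
    th d V.fst p r ≤ K * w := by
  exact le_of_tendsto_of_tendsto' (h.th_tendsto p hr) (h.en.const_mul K)
    fun j => (h.ac j).upper p r hr

/-- test with `⟪w,y⟫² gk 0 (1/2) y` (`B2.gk_sq`, `ae_vA`) -/
theorem LD.vcone (h : LD d K c w ε u V) : VCone V := by
  obtain ⟨K', hK', hsq⟩ := B2.gk_sq (E := E) d
  have hc : Continuous fun z : E × E => ⟪z.2, z.1⟫ ^ 2 * gk d 0 1 z.1 := by
    have := continuous_gk d (0 : E) 1
    fun_prop
  have hb : ∀ z : E × E, ‖z.2‖ ≤ 1 → |⟪z.2, z.1⟫ ^ 2 * gk d 0 1 z.1| ≤ K' * gk d 0 (2 * 1) z.1 :=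
    fun z hz => by
      have h1 := (hsq 0 1 z.1 one_pos).1
      have h2 := gk_pos d (0 : E) one_pos z.1
      have h3 : ⟪z.2, z.1⟫ ^ 2 ≤ ‖z.1‖ ^ 2 := by
        have := (abs_real_inner_le_norm z.2 z.1).trans
          (mul_le_mul_of_nonneg_right hz (norm_nonneg _))
        rw [one_mul] at this
        rw [← sq_abs]
        gcongr
      rw [abs_of_nonneg (by positivity)]
      rw [sub_zero] at h1
      nlinarith
  have t1 := h.conv' _ K' 0 (2 * 1) (by positivity) hc hb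
  have e1 : ∀ j, ∫ z, ⟪z.2, z.1⟫ ^ 2 * gk d 0 1 z.1 ∂vA (ε j) (u j) = 0 := fun j => by
    rw [integral_congr_ae (g := fun _ => 0)
      ((ae_vA h.three (h.pos j) (h.crit j)).mono fun z hz => by simp [hz.2.2]), integral_zero]
  simp only [e1] at t1
  have h0 := (integral_eq_zero_iff_of_nonneg
    (fun z => mul_nonneg (sq_nonneg _) (gk_pos d 0 one_pos _).le)
    (h.integrable (by positivity) hc hb)).1 (tendsto_nhds_unique t1 tendsto_const_nhds)
  filter_upwards [h0] with z hz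
  simpa [(gk_pos d 0 one_pos z.1).ne'] using hz

/-- `ball_le_th`, `th_zero` -/
theorem LD.meas_zero (h : LD d K c w ε u V) : V.fst {0} = 0 := by
  obtain ⟨C, hC, hball⟩ := ball_le_th (E := E) d
  have t1 : Tendsto (fun r : ℝ => ENNReal.ofReal (C * r ^ d * w)) (𝓝[>] 0) (𝓝 0) := by
    have h1 : Continuous fun r : ℝ => C * r ^ d * w := by fun_prop
    have h2 := ENNReal.tendsto_ofReal ((h1.tendsto 0).mono_left (nhdsWithin_le_nhds (s := Ioi 0)))
    have hd : d ≠ 0 := by have := h.two; omega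
    simpa [hd] using h2
  refine nonpos_iff_eq_zero.1 (ge_of_tendsto t1 ?_)
  filter_upwards [self_mem_nhdsWithin] with r hr
  have := hball V.fst 0 r hr (h.integ 0 r hr)
  rw [h.th_zero hr] at this
  exact (measure_mono (singleton_subset_iff.2 (mem_closedBall_self (le_of_lt hr)))).trans this

/-- `th_le_ball` with `η = 1/2`, `th_zero` -/
theorem LD.zero_mem (h : LD d K c w ε u V) : (0 : E) ∈ V.fst.support := by
  by_contra hy
  obtain ⟨L, hL, hth⟩ := th_le_ball (E := E) d (η := 1 / 2) (by positivity)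
  obtain ⟨U, hU, hU0⟩ := Measure.notMem_support_iff_exists.1 hy
  obtain ⟨ρ, hρ, hρU⟩ := Metric.nhds_basis_closedBall.mem_iff.1 hU
  have h2 := hth V.fst 0 (ρ / L) (by positivity) (h.integ _ _ (by positivity))
    (h.integ _ _ (by positivity))
  rw [mul_div_cancel₀ _ (by positivity), measureReal_def, measure_mono_null hρU hU0,
    h.th_zero (by positivity), h.th_zero (by positivity)] at h2
  simp only [ENNReal.toReal_zero, mul_zero, zero_add] at h2
  linarith [h.wpos]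

/-- `c(1/2) ≤ th_j(z, ε|z|) ≤ th_j(z,b) + K En b/|z|` (`AC.low`, `AC.mono`, `kappa_int`),
`th_j(z,b) ≤ 2^d e^{1/4} th_j(p,2b)` (`gk_shift2`) -/
theorem LD.low (h : LD d K c w ε u V) : ∃ c₁ δ : ℝ, 0 < c₁ ∧ 0 < δ ∧ δ ≤ 1 / 2 ∧
    ∀ (p : E) (b : ℝ), 0 < b → b ≤ δ * ‖p‖ →
      (∀ᶠ j in UU, ∃ z ∈ closedBall p b, 1 / 2 ≤ 1 - u j z ^ 2) → c₁ ≤ th d V.fst p (2 * b) := by
  have hc := h.cpos (1 / 2) (by norm_num)
  have hK : 0 < K := by linarith [h.K1]
  have hw := h.wpos
  have hA : 0 < 2 ^ d * Real.exp (1 / 4) := by positivity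
  refine ⟨c (1 / 2) / 2 / (2 ^ d * Real.exp (1 / 4)), min (1 / 2) (c (1 / 2) / (4 * (K * (w + 1)))),
    by positivity, lt_min (by norm_num) (by positivity), min_le_left _ _, fun p b hb hbp hev => ?_⟩
  have hδ1 := min_le_left (1 / 2) (c (1 / 2) / (4 * (K * (w + 1))))
  have hδ2 := (le_div_iff₀ (by positivity)).1 (min_le_right (1 / 2) (c (1 / 2) / (4 * (K * (w + 1)))))
  have hδ0 : 0 < min (1 / 2) (c (1 / 2) / (4 * (K * (w + 1)))) := lt_min (by norm_num) (by positivity)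
  generalize min (1 / 2) (c (1 / 2) / (4 * (K * (w + 1)))) = δ at hbp hδ1 hδ2 hδ0
  have hp0 := norm_nonneg p
  have hbp' : b ≤ ‖p‖ / 2 := by nlinarith
  have t3 : Tendsto (fun j => ε j * (‖p‖ + b)) UU (𝓝 0) := by simpa using h.eps.mul_const (‖p‖ + b)
  refine ge_of_tendsto (h.th_tendsto p (by positivity)) ?_
  filter_upwards [hev, t3.eventually (gt_mem_nhds hb), h.eps.eventually (gt_mem_nhds one_pos),
    h.en.eventually (gt_mem_nhds (lt_add_one w))] with j ⟨z, hz, hzu⟩ a1 a2 a3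
  rw [mem_closedBall, dist_eq_norm] at hz
  have b1 : ‖p‖ / 2 ≤ ‖z‖ := by linarith [norm_sub_norm_le p z, norm_sub_rev p z]
  have b2 : ‖z‖ ≤ ‖p‖ + b := by linarith [norm_sub_norm_le z p]
  have b3 : 0 < ‖z‖ := by linarith
  have hε := h.pos j
  have b4 : ε j * ‖z‖ ≤ b := (mul_le_mul_of_nonneg_left b2 hε.le).trans a1.le
  have c1 := (h.ac j).low a2.le (1 / 2) (by norm_num) z (norm_pos_iff.1 b3) hzu
  have c2 := (h.ac j).mono z _ b (by positivity) b4 (by linarith)
  have c3 := (kappa_int (d := d) h.three hε (h.crit j) z (by positivity : 0 < ε j * ‖z‖)).1 b b4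
  have c4 : K * En d (ε j) (u j) * (b / ‖z‖) ≤ K * (w + 1) * (2 * δ) := by
    refine mul_le_mul (mul_le_mul_of_nonneg_left a3.le hK.le) ?_ (by positivity) (by positivity)
    rw [div_le_iff₀ b3]
    nlinarith
  have c5 : th d (vA (ε j) (u j)).fst z b ≤
      2 ^ d * Real.exp (1 / 4) * th d (vA (ε j) (u j)).fst p (2 * b) := by
    rw [th, th, ← integral_const_mul]
    refine integral_mono (integrable_mu h.three hε (h.crit j) z hb).1
      ((integrable_mu h.three hε (h.crit j) p (by positivity)).1.const_mul _) fun y => ?_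
    refine (gk_shift2 d z p hb y).trans ?_
    have := (gk_pos d p (by positivity : 0 < 2 * b) y).le
    have : ‖z - p‖ ^ 2 / (4 * b ^ 2) ≤ 1 / 4 := by
      rw [div_le_iff₀ (by positivity)]
      nlinarith [norm_nonneg (z - p)]
    gcongr
  rw [div_le_iff₀' hA]
  linarith

/-- by `clear` (`s = b/2`) and `ed_le`, `ed_j ≤ C ε_j³` on `closedBall p (b/2)`; test with
`φ z = max 0 (b/2 - dist z.1 p)` (`exists_le_gk`) -/
theorem LD.not_mem_support (h : LD d K c w ε u V) {p : E} {b : ℝ} (hb : 0 < b)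
    (hp : b ≤ ‖p‖ / 2) (h0 : ∀ᶠ j in UU, ∀ z ∈ closedBall p b, 1 - u j z ^ 2 ≤ 1 / 2) :
    p ∉ V.fst.support := by
  set φ : E → ℝ := fun y => max 0 (b / 2 - dist y p) with hφ
  have hφc : Continuous φ := by fun_prop
  have hφ0 : ∀ y, 0 ≤ φ y := fun y => le_max_left _ _
  have hφs : ∀ y, y ∉ closedBall p (b / 2) → φ y = 0 := fun y hy =>
    max_eq_left (by rw [mem_closedBall] at hy; linarith)
  have hφk : HasCompactSupport φ := HasCompactSupport.intro (isCompact_closedBall _ _) hφs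
  obtain ⟨L, -, hL⟩ := exists_le_gk d hφc hφk
  have hc : Continuous fun z : E × E => φ z.1 := hφc.comp continuous_fst
  have t1 := h.conv _ L 1 one_pos hc fun z _ => hL z.1
  set M : ℝ := 2 * finrank ℝ E * (‖p‖ + b) ^ 2 / (b / 2) ^ 2 with hM
  have hσ := B2.sig_pos
  have hpn : 0 < ‖p‖ := by linarith
  have t2 : Tendsto (fun j => M ^ 2 / (sig * ‖p‖) * ε j ^ 3 * ∫ y, φ y) UU (𝓝 0) := by
    simpa using ((h.eps.pow 3).const_mul (M ^ 2 / (sig * ‖p‖))).mul_const (∫ y, φ y)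
  have h1 : ∫ z, φ z.1 ∂V ≤ 0 := by
    refine le_of_tendsto_of_tendsto t1 t2 ?_
    filter_upwards [h0] with j hj
    have hε := h.pos j
    rw [integral_vA' hε (h.crit j) hc.measurable, ← integral_const_mul]
    refine integral_mono_of_nonneg
      (Eventually.of_forall fun y => mul_nonneg (B2.ed_nonneg hε y) (hφ0 y))
      ((hφc.integrable_of_hasCompactSupport hφk).const_mul _) (Eventually.of_forall fun y => ?_)
    by_cases hy : y ∈ closedBall p (b / 2)
    swap
    · simp [hφs y hy]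
    refine mul_le_mul_of_nonneg_right ?_ (hφ0 y)
    have a0 : ∀ x ∈ closedBall p b, ‖p‖ / 2 ≤ ‖x‖ ∧ ‖x‖ ≤ ‖p‖ + b := fun x hx => by
      rw [mem_closedBall, dist_eq_norm] at hx
      exact ⟨by linarith [norm_sub_norm_le p x, norm_sub_rev p x],
        by linarith [norm_sub_norm_le x p]⟩
    have a1 := clear h.three hε (h.crit j) (q := y) (s := b / 2) (R := ‖p‖ + b) (by positivity)
      fun x hx => by
        have hx' : x ∈ closedBall p b := by
          rw [mem_closedBall] at hx hy ⊢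
          linarith [dist_triangle x y p]
        exact ⟨norm_pos_iff.1 (by linarith [(a0 x hx').1]), (a0 x hx').2, hj x hx'⟩
    have a2 : 1 - u j y ^ 2 ≤ M * ε j ^ 2 := a1.trans (le_of_eq (by rw [hM]; ring))
    have a3 : 0 ≤ 1 - u j y ^ 2 := by
      rw [sub_nonneg, sq_le_one_iff_abs_le_one]
      exact (h.crit j).abs_le y
    have a4 := (a0 y (closedBall_subset_closedBall (by linarith) hy)).1
    refine (ed_le h.three hε (h.crit j) y).trans ?_
    calc 2 * W (u j y) / (sig * (ε j * ‖y‖))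
        ≤ 2 * ((M * ε j ^ 2) ^ 2 / 4) / (sig * (ε j * (‖p‖ / 2))) := by
          unfold W
          gcongr
      _ = _ := by
          field_simp
          ring
  have h2 := (integral_eq_zero_iff_of_nonneg (fun z => hφ0 _)
    (h.integrable one_pos hc fun z _ => hL z.1)).1
    (le_antisymm h1 (integral_nonneg fun z => hφ0 _))
  refine Measure.notMem_support_iff_exists.2 ⟨ball p (b / 2), ball_mem_nhds p (by positivity), ?_⟩
  rw [Measure.fst_apply measurableSet_ball]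
  refine measure_mono_null (fun z hz => ?_) (ae_iff.1 h2)
  have : 0 < φ z.1 := lt_max_of_lt_right (sub_pos.2 hz)
  exact this.ne'

theorem LD.low_supp (h : LD d K c w ε u V) : ∃ c₁ δ : ℝ, 0 < c₁ ∧ 0 < δ ∧
    ∀ p ∈ V.fst.support, ∀ r : ℝ, 0 < r → r ≤ δ * ‖p‖ → c₁ ≤ th d V.fst p r := by
  obtain ⟨c₁, δ, hc, hδ, hδ', h1⟩ := h.low
  refine ⟨c₁, δ, hc, hδ, fun p hp r hr hrp => ?_⟩
  have hp0 := norm_nonneg p
  have := h1 p (r / 2) (by positivity) (by linarith) ?_
  · rwa [show 2 * (r / 2) = r by ring] at this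
  by_contra hcon
  refine h.not_mem_support (b := r / 2) (by positivity) (by nlinarith) ?_ hp
  filter_upwards [Ultrafilter.eventually_not.2 hcon] with j hj z hz
  by_contra hlt
  exact hj ⟨z, hz, by linarith⟩

end Crest.Agent.R246.B1
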