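import Crest.Agent.R246.B1.LimA

/-!
# Row 246, block B1: the limit varifold is stationary
-/

set_option autoImplicit false
set_option linter.unusedSectionVars false

open MeasureTheory Metric Filter Topology Set Module
open scoped RealInnerProductSpace ENNReal ContDiff Real

noncomputable section

namespace Crest.Agent.R246.B1

variable {E : Type} [NormedAddCommGroup E] [InnerProductSpace ℝ E] [FiniteDimensional ℝ E]
  [MeasurableSpace E] [BorelSpace E]

variable {d : ℕ} {K : ℝ} {c : ℝ → ℝ} {w : ℝ} {ε : ℕ → ℝ} {u : ℕ → E → ℝ} {V : Measure (E × E)}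

theorem LD.kap_tendsto (h : LD d K c w ε u V) (p : E) {r : ℝ} (hr : 0 < r) :
    Tendsto (fun j => ∫ z, (1 - ‖z.2‖ ^ 2) * gk d p r z.1 ∂vA (ε j) (u j)) UU
      (𝓝 (∫ z, (1 - ‖z.2‖ ^ 2) * gk d p r z.1 ∂V)) :=
  h.conv' _ 1 p r hr (kap_cont d p r) fun z hz => (kap_bound d p hr z hz).2

/-- limit of `AC.mono` on `[a, 2a]` (`kappa_int`) -/
theorem LD.step (h : LD d K c w ε u V) (p : E) {a : ℝ} (ha : 0 < a) (hp : 2 * a ≤ ‖p‖) :
    th d V.fst p a + (∫ z, (1 - ‖z.2‖ ^ 2) * gk d p a z.1 ∂V) / 2 ^ (d + 1) ≤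
      th d V.fst p (2 * a) + K * w * (2 * a / ‖p‖) := by
  refine le_of_tendsto_of_tendsto' ((h.th_tendsto p ha).add ((h.kap_tendsto p ha).div_const _))
    ((h.th_tendsto p (by positivity)).add ((h.en.const_mul K).mul_const _)) fun j => ?_
  have h1 := (h.ac j).mono p a (2 * a) ha (by linarith) hp
  have h2 := (kappa_int (d := d) h.three (h.pos j) (h.crit j) p ha).2
  linarith

/-- `g a = th a + 2Kw a/|p|` is monotone along the dyadic sequence and bounded below -/
theorem LD.kappa (h : LD d K c w ε u V) {p : E} (hp : p ≠ 0) :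
    Tendsto (fun k : ℕ => ∫ z, (1 - ‖z.2‖ ^ 2) * gk d p (‖p‖ / 2 ^ (k + 1)) z.1 ∂V) atTop (𝓝 0) := by
  have hpn := norm_pos_iff.2 hp
  have hKw : 0 < K * w := mul_pos (by linarith [h.K1]) h.wpos
  set g : ℕ → ℝ := fun k => th d V.fst p (‖p‖ / 2 ^ k) + 2 * (K * w) / 2 ^ k with hg
  have h0 : ∀ k : ℕ, 0 ≤ ∫ z, (1 - ‖z.2‖ ^ 2) * gk d p (‖p‖ / 2 ^ (k + 1)) z.1 ∂V := fun k =>
    integral_nonneg_of_ae (h.le1.mono fun z hz => (kap_bound d p (by positivity) z hz).1)
  have h1 : ∀ k : ℕ, ∫ z, (1 - ‖z.2‖ ^ 2) * gk d p (‖p‖ / 2 ^ (k + 1)) z.1 ∂V ≤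
      2 ^ (d + 1) * (g k - g (k + 1)) := fun k => by
    have e1 : 2 * (‖p‖ / 2 ^ (k + 1)) = ‖p‖ / 2 ^ k := by
      field_simp
      ring
    have h2 := h.step p (a := ‖p‖ / 2 ^ (k + 1)) (by positivity)
      (by rw [e1]; exact div_le_self hpn.le (one_le_pow₀ one_le_two))
    rw [e1] at h2
    rw [← div_le_iff₀' (by positivity)]
    have e2 : K * w * (‖p‖ / 2 ^ k / ‖p‖) = 2 * (K * w) / 2 ^ k - 2 * (K * w) / 2 ^ (k + 1) := by
      field_simp
      ring
    simp only [hg]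
    linarith
  have h2 : Antitone g := antitone_nat_of_succ_le fun k => by
    have := (h0 k).trans (h1 k)
    have := nonneg_of_mul_nonneg_right this (by positivity) 
    linarith
  have h3 : BddBelow (range g) := ⟨0, by
    rintro _ ⟨k, rfl⟩
    exact add_nonneg (th_nonneg d _ p (by positivity)) (by positivity)⟩
  have h4 := tendsto_atTop_ciInf h2 h3
  have h5 := (h4.sub (h4.comp (tendsto_add_atTop_nat 1))).const_mul ((2 : ℝ) ^ (d + 1))
  rw [sub_self, mul_zero] at h5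
  exact squeeze_zero h0 h1 h5

/-- `th_le_ball`, `low_supp`, `th_le` -/
theorem LD.ball_low (h : LD d K c w ε u V) : ∃ c₂ δ : ℝ, 0 < c₂ ∧ 0 < δ ∧
    ∀ p ∈ V.fst.support, ∀ r : ℝ, 0 < r → r ≤ δ * ‖p‖ →
      c₂ * r ^ d ≤ V.fst.real (closedBall p r) := by
  obtain ⟨c₁, δ, hc, hδ, h1⟩ := h.low_supp
  have hKw : 0 < K * w := mul_pos (by linarith [h.K1]) h.wpos
  obtain ⟨L, hL, hth⟩ := th_le_ball (E := E) d (η := c₁ / (2 * (K * w))) (by positivity)
  refine ⟨c₁ / 2 / L ^ d, δ, by positivity, hδ, fun p hp r hr hrp => ?_⟩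
  have h2 := h1 p hp (r / L) (by positivity) ((div_le_self hr.le hL).trans hrp)
  have h3 := hth V.fst p (r / L) (by positivity) (h.integ _ _ (by positivity))
    (h.integ _ _ (by positivity))
  have h4 := mul_le_mul_of_nonneg_left (h.th_le p (r := 2 * (r / L)) (by positivity))
    (by positivity : 0 ≤ c₁ / (2 * (K * w)))
  have h5 : c₁ / (2 * (K * w)) * (K * w) = c₁ / 2 := by
    generalize K * w = A at hKw
    field_simp
  rw [mul_div_cancel₀ _ (by positivity)] at h3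
  have h6 : c₁ / 2 ≤ (r / L)⁻¹ ^ d * V.fst.real (closedBall p r) := by linarith
  rw [inv_pow, inv_mul_eq_div, le_div_iff₀ (by positivity), div_pow] at h6
  calc _ = c₁ / 2 * (r ^ d / L ^ d) := by ring
    _ ≤ _ := h6

/-- `λ = (V.withDensity (ofReal κ)).fst ≤ V.fst`; `Besicovitch.ae_tendsto_rnDeriv λ V.fst` along
`r_k = |p|/2^{k+1}`: `ball_le_th` for `λ`, `kappa`, `ball_low`, `Measure.support_mem_ae`,
`meas_zero` give `rnDeriv = 0` a.e., so `λ = 0`. -/
theorem LD.unit (h : LD d K c w ε u V) : ∀ᵐ z ∂V, ‖z.2‖ = 1 := by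
  set f : E × E → ℝ≥0∞ := fun z => ENNReal.ofReal (1 - ‖z.2‖ ^ 2) with hf
  have hfm : Measurable f := by fun_prop
  have hle : V.withDensity f ≤ V := by
    conv_rhs => rw [← withDensity_one (μ := V)]
    refine withDensity_mono (Eventually.of_forall fun z => ?_)
    simp only [hf, Pi.one_apply, ENNReal.ofReal_le_one]
    nlinarith [sq_nonneg ‖z.2‖]
  set lam := (V.withDensity f).fst with hlam
  have hle' : lam ≤ V.fst := Measure.map_mono hle measurable_fst
  have hint : ∀ p r, 0 < r → Integrable (gk d p r) lam :=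
    fun p r hr => (h.integ p r hr).mono_measure hle'
  have hth : ∀ p r, 0 < r → th d lam p r = ∫ z, (1 - ‖z.2‖ ^ 2) * gk d p r z.1 ∂V := fun p r hr => by
    rw [th, hlam, integral_fst _ (continuous_gk d p r).measurable,
      integral_withDensity_eq_integral_toReal_smul hfm (by simp [hf])]
    refine integral_congr_ae (h.le1.mono fun z hz => ?_)
    simp only [hf, smul_eq_mul]
    rw [ENNReal.toReal_ofReal (by nlinarith [norm_nonneg z.2])]
  have := locFin fun p => h.integ p 1 one_pos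
  have := locFin fun p => hint p 1 one_pos
  obtain ⟨C, hC, hball⟩ := ball_le_th (E := E) d
  obtain ⟨c₂, δ, hc, hδ, hlow⟩ := h.ball_low
  have h0 : lam.rnDeriv V.fst =ᵐ[V.fst] 0 := by
    filter_upwards [Besicovitch.ae_tendsto_rnDeriv lam V.fst, Measure.support_mem_ae,
      compl_mem_ae_iff.2 h.meas_zero] with p h1 h2 h3
    have hp : p ≠ 0 := h3
    have hpn := norm_pos_iff.2 hp
    have t0 : Tendsto (fun k : ℕ => ‖p‖ / 2 ^ (k + 1)) atTop (𝓝 0) :=
      tendsto_const_nhds.div_atTop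
        ((tendsto_pow_atTop_atTop_of_one_lt one_lt_two).comp (tendsto_add_atTop_nat 1))
    have t1 : Tendsto (fun k : ℕ => ‖p‖ / 2 ^ (k + 1)) atTop (𝓝[>] 0) :=
      tendsto_nhdsWithin_iff.2 ⟨t0, Eventually.of_forall fun k => by
        simp only [mem_Ioi]; positivity⟩
    have t2 := ENNReal.tendsto_ofReal ((h.kappa hp).const_mul (C / c₂))
    rw [mul_zero, ENNReal.ofReal_zero] at t2
    refine nonpos_iff_eq_zero.1 (le_of_tendsto_of_tendsto (h1.comp t1) t2 ?_)
    filter_upwards [t0.eventually (gt_mem_nhds (mul_pos hδ hpn))] with k hk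
    have hr : 0 < ‖p‖ / 2 ^ (k + 1) := by positivity
    simp only [Function.comp]
    generalize ‖p‖ / 2 ^ (k + 1) = r at hr hk
    have a1 := hball lam p r hr (hint p r hr)
    have a2 := ENNReal.ofReal_le_of_le_toReal (hlow p h2 r hr hk.le)
    refine (ENNReal.div_le_div a1 a2).trans (le_of_eq ?_)
    rw [← ENNReal.ofReal_div_of_pos (by positivity), hth p r hr]
    congr 1
    field_simp
  have h1 : lam = 0 := by
    rw [← Measure.withDensity_rnDeriv_eq lam V.fst (Measure.absolutelyContinuous_of_le hle'),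
      withDensity_congr_ae h0, withDensity_zero]
  have h2 : ∫⁻ z, f z ∂V = 0 := by
    rw [← setLIntegral_univ, ← withDensity_apply _ MeasurableSet.univ, ← Measure.fst_univ, ← hlam,
      h1]
    rfl
  filter_upwards [(lintegral_eq_zero_iff hfm).1 h2, h.le1] with z h3 h4
  simp only [hf, Pi.zero_apply, ENNReal.ofReal_eq_zero] at h3
  nlinarith [norm_nonneg z.2]

theorem stat_err {ε : ℝ} {u : E → ℝ} (hE : finrank ℝ E = d + 1) (hd : 2 ≤ d) (hε : 0 < ε)
    (h : Crit ε u) {X : E → E} {L η : ℝ} (hL : 0 ≤ L) (h0 : ∀ y, ‖X y‖ ≤ L * gk d 0 1 y)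
    (hη : 0 < η) (hη1 : η ≤ 1) :
    |∫ z, (1 - ‖z.2‖ ^ 2) * ⟪X z.1, z.1⟫ / ‖z.1‖ ^ 2 ∂vA ε u| ≤
      L / η * ∫ z, (1 - ‖z.2‖ ^ 2) * gk d 0 1 z.1 ∂vA ε u + 24 * L * En d ε u * η := by
  have hn : 3 ≤ finrank ℝ E := by omega
  have hm : Measurable fun y : E => gk d 0 η y / ‖y‖ := by
    have := (continuous_gk d (0 : E) η).measurable
    fun_prop
  have i1 : Integrable (fun z : E × E => (1 - ‖z.2‖ ^ 2) * gk d 0 1 z.1) (vA ε u) :=
    ((integrable_fst _ (continuous_gk d 0 1).measurable).1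
      (integrable_mu hn hε h 0 one_pos).1).mono' (kap_cont d 0 1).aestronglyMeasurable
      ((ae_vA hn hε h).mono fun z hz => by simpa using (kap_bound d 0 one_pos z hz.2.1).2)
  have i2 := (integrable_fst _ hm).1 (integrable_mu (d := d) hn hε h 0 hη).2
  have h1 := norm_integral_le_of_norm_le ((i1.const_mul (L / η)).add (i2.const_mul (2 * L * η ^ d)))
    (f := fun z : E × E => (1 - ‖z.2‖ ^ 2) * ⟪X z.1, z.1⟫ / ‖z.1‖ ^ 2)
    ((ae_vA hn hε h).mono fun z hz => by
      have a0 := norm_pos_iff.2 hz.1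
      have a1 : 0 ≤ 1 - ‖z.2‖ ^ 2 := by nlinarith [norm_nonneg z.2, hz.2.1]
      have a2 : |⟪X z.1, z.1⟫| / ‖z.1‖ ^ 2 ≤ L * (gk d 0 1 z.1 / ‖z.1‖) := by
        rw [div_le_iff₀ (by positivity)]
        calc _ ≤ L * gk d 0 1 z.1 * ‖z.1‖ :=
              (abs_real_inner_le_norm _ _).trans (mul_le_mul_of_nonneg_right (h0 _) a0.le)
          _ = _ := by field_simp
      have a3 := mul_le_mul_of_nonneg_left (gk_div_le' d hη z.1) hL
      have a4 : 0 ≤ 2 * L * η ^ d * (gk d 0 η z.1 / ‖z.1‖) := by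
        have := gk_pos d 0 hη z.1
        positivity
      rw [Real.norm_eq_abs, abs_div, abs_mul, abs_of_nonneg a1, abs_of_pos (by positivity : 0 < ‖z.1‖ ^ 2),
        mul_div_assoc]
      simp only [Pi.add_apply]
      calc _ ≤ (1 - ‖z.2‖ ^ 2) * (L * (gk d 0 1 z.1 / η + 2 * η ^ d * (gk d 0 η z.1 / ‖z.1‖))) :=
            mul_le_mul_of_nonneg_left (a2.trans a3) a1
        _ = L / η * ((1 - ‖z.2‖ ^ 2) * gk d 0 1 z.1) +
            (1 - ‖z.2‖ ^ 2) * (2 * L * η ^ d * (gk d 0 η z.1 / ‖z.1‖)) := by ring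
        _ ≤ _ := by nlinarith [sq_nonneg ‖z.2‖])
  rw [integral_add' (i1.const_mul _) (i2.const_mul _), integral_const_mul, integral_const_mul,
    ← integral_fst _ hm] at h1
  refine h1.trans (add_le_add_right ?_ _)
  have hEn : 0 ≤ En d ε u := En_nonneg hε
  calc _ ≤ 2 * L * η ^ 2 * (12 * En d ε u / η) :=
        mul_le_mul (mul_le_mul_of_nonneg_left (pow_le_pow_of_le_one hη.le hη1 hd) (by positivity))
          (J_le hE hd hε h hη) (integral_nonneg fun y => by
            have := gk_pos d 0 hη y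
            positivity) (by positivity)
    _ = _ := by
        field_simp
        ring

/-- `stress`; the error is at most `L ∫κ gk 0 1/|y| ≤ (L/η)∫κ gk 0 1 + 24 L En η^{d-1}`
(`exists_le_gk`, `gk_div_le'`, `J_le`), and `∫κ gk 0 1 dV_j → 0` by `unit` -/
theorem LD.stat (h : LD d K c w ε u V) : Stat V := by
  intro X hX hc
  obtain ⟨L₀, hL₀, h0⟩ := exists_le_gk d hX.continuous hc
  obtain ⟨L₁, hL₁, h1⟩ := exists_le_gk d (hX.continuous_fderiv one_ne_zero) (hc.fderiv ℝ)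
  have hg := fun y : E => (gk_pos d 0 one_pos y).le
  have h0' : ∀ y, ‖X y‖ ≤ (L₀ + L₁) * gk d 0 1 y := fun y => by nlinarith [h0 y, hg y]
  have h1' : ∀ y, ‖fderiv ℝ X y‖ ≤ (L₀ + L₁) * gk d 0 1 y := fun y => by nlinarith [h1 y, hg y]
  have hL : 0 ≤ L₀ + L₁ := by positivity
  generalize L₀ + L₁ = L at h0' h1' hL
  have t1 := h.conv (divT X) ((finrank ℝ E + 1) * L) 1 one_pos (continuous_divT hX) fun z hz => by
    have a1 := abs_trc_le (fderiv ℝ X z.1)
    have a2 : |⟪z.2, fderiv ℝ X z.1 z.2⟫| ≤ ‖fderiv ℝ X z.1‖ := by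
      refine (abs_real_inner_le_norm _ _).trans ?_
      calc _ ≤ 1 * (‖fderiv ℝ X z.1‖ * 1) := by
            gcongr
            exact ((fderiv ℝ X z.1).le_opNorm z.2).trans (by gcongr)
        _ = _ := by ring
    refine (abs_sub _ _).trans ?_
    have a3 := mul_le_mul_of_nonneg_left (h1' z.1) (by positivity : (0 : ℝ) ≤ finrank ℝ E + 1)
    nlinarith
  have t2 := h.kap_tendsto 0 one_pos
  rw [integral_congr_ae (g := fun _ => 0) (h.unit.mono fun z hz => by simp [hz]),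
    integral_zero] at t2
  have key : ∀ η : ℝ, 0 < η → η ≤ 1 → |∫ z, divT X z ∂V| ≤ 24 * L * w * η := fun η hη hη1 => by
    have t3 := (t2.const_mul (L / η)).add ((h.en.const_mul (24 * L)).mul_const η)
    rw [mul_zero, zero_add] at t3
    refine le_of_tendsto_of_tendsto' t1.abs t3 fun j => ?_
    rw [stress h.three (h.pos j) (h.crit j) X L 1 one_pos hX h0' h1']
    exact stat_err h.dim h.two (h.pos j) (h.crit j) hL h0' hη hη1
  have t4 : Tendsto (fun η : ℝ => 24 * L * w * η) (𝓝[>] 0) (𝓝 0) := by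
    have : Continuous fun η : ℝ => 24 * L * w * η := by fun_prop
    simpa using (this.tendsto 0).mono_left nhdsWithin_le_nhds
  refine abs_nonpos_iff.1 (ge_of_tendsto t4 ?_)
  filter_upwards [Ioc_mem_nhdsGT one_pos] with η hη using key η hη.1 hη.2

theorem LD.sv0 (h : LD d K c w ε u V) : SV0 d V := ⟨h.unit, h.integ, h.stat⟩

end Crest.Agent.R246.B1
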