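import Crest.Agent.R246.B1.LimB

/-!
# Row 246, block B1: the limit varifold is in the class
-/

set_option autoImplicit false
set_option linter.unusedSectionVars false

open MeasureTheory Metric Filter Topology Set Module
open scoped RealInnerProductSpace ENNReal ContDiff Real

noncomputable section

namespace Crest.Agent.R246.B1

variable {E : Type} [NormedAddCommGroup E] [InnerProductSpace ℝ E] [FiniteDimensional ℝ E]
  [MeasurableSpace E] [BorelSpace E]

variable {d : ℕ} {K : ℝ} {c : ℝ → ℝ} {w : ℝ} {ε : ℕ → ℝ} {u : ℕ → E → ℝ} {V : Measure (E × E)}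

open Classical in
/-- limit phase -/
def ph (u : ℕ → E → ℝ) (y : E) : ℝ := if ∀ᶠ j in UU, 0 ≤ u j y then 1 else -1

theorem LD.lower (h : LD d K c w ε u V) (hM : StMono E) : ∃ c, 0 < c ∧ Lower d V.fst c := by
  obtain ⟨c₁, δ, hc, hδ, h1⟩ := h.low_supp
  refine ⟨min c₁ w, lt_min hc h.wpos, fun p hp r hr => ?_⟩
  by_cases hp0 : p = 0
  · rw [hp0, h.th_zero hr]
    exact min_le_right _ _
  have hpn : 0 < δ * ‖p‖ := mul_pos hδ (norm_pos_iff.2 hp0)
  rcases le_total r (δ * ‖p‖) with hle | hle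
  · exact (min_le_left _ _).trans (h1 p hp r hr hle)
  · exact (min_le_left _ _).trans ((h1 p hp _ hpn le_rfl).trans
      (hM d h.dim V h.sv0 p _ r hpn hle).2)

/-- off the support `th(y,2b) < c₁` for small `b` (`th_le_ball`, `th_le`), so by `low` eventually
`u_j ≠ 0` on `closedBall y b`; intermediate value theorem.  `y ≠ 0` by `zero_mem`. -/
theorem LD.col (h : LD d K c w ε u V) : Col V.fst.support (ph u) := by
  refine ⟨fun y => by unfold ph; split_ifs <;> simp, fun y hy => ?_⟩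
  have hy0 : y ≠ 0 := by
    rintro rfl
    exact hy h.zero_mem
  have hyn := norm_pos_iff.2 hy0
  obtain ⟨c₁, δ, hc, hδ, hδ', hlow⟩ := h.low
  have hKw : 0 < K * w := mul_pos (by linarith [h.K1]) h.wpos
  obtain ⟨L, hL, hth⟩ := th_le_ball (E := E) d (η := c₁ / (2 * (K * w))) (by positivity)
  obtain ⟨U, hU, hU0⟩ := Measure.notMem_support_iff_exists.1 hy
  obtain ⟨ρ, hρ, hρU⟩ := Metric.nhds_basis_closedBall.mem_iff.1 hU
  set b := min (δ * ‖y‖) (ρ / (2 * L)) with hb_def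
  have hb : 0 < b := lt_min (by positivity) (by positivity)
  have hb1 : b ≤ δ * ‖y‖ := min_le_left _ _
  have hb2 : L * (2 * b) ≤ ρ := by
    have := (le_div_iff₀ (by positivity)).1 (min_le_right (δ * ‖y‖) (ρ / (2 * L)))
    linarith
  have h1 : th d V.fst y (2 * b) < c₁ := by
    have h2 := hth V.fst y (2 * b) (by positivity) (h.integ _ _ (by positivity))
      (h.integ _ _ (by positivity))
    rw [measureReal_def, measure_mono_null ((closedBall_subset_closedBall hb2).trans hρU) hU0] at h2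
    have h3 := mul_le_mul_of_nonneg_left (h.th_le y (r := 2 * (2 * b)) (by positivity))
      (by positivity : 0 ≤ c₁ / (2 * (K * w)))
    have h4 : c₁ / (2 * (K * w)) * (K * w) = c₁ / 2 := by
      generalize K * w = A at hKw
      field_simp
    simp only [ENNReal.toReal_zero, mul_zero, zero_add] at h2
    linarith
  have h2 : ∀ᶠ j in UU, ∀ z ∈ closedBall y b, u j z ≠ 0 := by
    have h3 : ¬ ∀ᶠ j in UU, ∃ z ∈ closedBall y b, 1 / 2 ≤ 1 - u j z ^ 2 :=
      fun h3 => (hlow y b hb hb1 h3).not_gt h1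
    filter_upwards [Ultrafilter.eventually_not.2 h3] with j hj z hz hz0
    exact hj ⟨z, hz, by rw [hz0]; norm_num⟩
  have hne : closedBall y b ⊆ {0}ᶜ := fun z hz hz0 => by
    rw [mem_singleton_iff] at hz0
    rw [hz0, mem_closedBall, dist_zero_left] at hz
    nlinarith
  have hsg : ∀ j, (∀ z ∈ closedBall y b, u j z ≠ 0) → ∀ a ∈ closedBall y b, ∀ a' ∈ closedBall y b,
      0 ≤ u j a → 0 ≤ u j a' := fun j hj a ha a' ha' h0 => by
    by_contra hlt
    obtain ⟨z, hz, hz0⟩ := (convex_closedBall y b).isPreconnected.intermediate_value ha' ha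
      ((h.crit j).smooth.continuousOn.mono hne) ⟨(not_le.1 hlt).le, h0⟩
    exact hj z hz hz0
  filter_upwards [closedBall_mem_nhds y hb] with y' hy'
  have : (∀ᶠ j in UU, 0 ≤ u j y') ↔ ∀ᶠ j in UU, 0 ≤ u j y :=
    eventually_congr (h2.mono fun j hj => ⟨hsg j hj _ hy' _ (mem_closedBall_self hb.le),
      hsg j hj _ (mem_closedBall_self hb.le) _ hy'⟩)
  unfold ph
  rw [propext this]

theorem LD.hx_tendsto (h : LD d K c w ε u V) (p : E) {r : ℝ} (hr : 0 < r) {e : E} (he : ‖e‖ = 1) :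
    Tendsto (fun j => hx d (vA (ε j) (u j)).fst p r e) UU (𝓝 (hx d V.fst p r e)) := by
  obtain ⟨K', hK', hsq⟩ := B2.gk_sq (E := E) d
  have hc : Continuous fun y : E => ⟪e, y - p⟫ ^ 2 / r ^ 2 * gk d p (2 * r) y := by
    have := continuous_gk d p (2 * r)
    fun_prop
  simp only [hx, integral_fst _ hc.measurable]
  refine h.conv' _ (4 * K') p (2 * (2 * r)) (by positivity) (hc.comp continuous_fst) fun z _ => ?_
  have h1 := (hsq p (2 * r) z.1 (by positivity)).1
  have h2 := gk_pos d p (by positivity : 0 < 2 * r) z.1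
  have h3 : ⟪e, z.1 - p⟫ ^ 2 ≤ ‖z.1 - p‖ ^ 2 := by
    have := abs_real_inner_le_norm e (z.1 - p)
    rw [he, one_mul] at this
    rw [← sq_abs]
    gcongr
  rw [abs_of_nonneg (by positivity), div_mul_eq_mul_div, div_le_iff₀ (by positivity)]
  nlinarith

/-- `δ = δ_Q/(2(1+|K_c|))`, `δ_Q` from `StQ` with `Λ = w+1`; the ultrafilter picks one of the three
alternatives (`Ultrafilter.eventually_or`) -/
theorem LD.quant (h : LD d K c w ε u V) (hC : StCacc E) (hQ : StQ E) : Quant d V.fst (ph u) := by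
  intro η hη
  obtain ⟨δ, hδ, hQ'⟩ := hQ d h.dim h.two (w + 1) η hη
  obtain ⟨Kc, hKc⟩ := hC d
  have hK0 := abs_nonneg Kc
  have hδ1 : δ / (2 * (1 + |Kc|)) * (1 + |Kc|) = δ / 2 := by field_simp
  have hδ2 : 0 < δ / (2 * (1 + |Kc|)) := by positivity
  refine ⟨δ / (2 * (1 + |Kc|)), hδ2, fun p r e hr hrp he hhx => ?_⟩
  set δ' := δ / (2 * (1 + |Kc|))
  have hx0 : 0 ≤ hx d V.fst p r e :=
    integral_nonneg fun y => mul_nonneg (by positivity) (gk_pos d p (by positivity) y).le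
  have h1 : hx d V.fst p r e < δ := by nlinarith
  have h2 : ∫ z, (1 - ⟪z.2, e⟫ ^ 2) * gk d p (3 / 2 * r) z.1 ∂V < δ := by
    refine (hKc V h.sv0 p r e hr he).trans_lt ?_
    nlinarith [mul_le_mul_of_nonneg_right (le_abs_self Kc) hx0, mul_le_mul_of_nonneg_left hhx hK0]
  have h3 : r ≤ δ * ‖p‖ := hrp.trans (mul_le_mul_of_nonneg_right (by nlinarith) (norm_nonneg _))
  have t1 := h.hx_tendsto p hr he
  have t2 := h.conv' (fun z => (1 - ⟪z.2, e⟫ ^ 2) * gk d p (3 / 2 * r) z.1) 1 p (3 / 2 * r)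
    (by positivity) (by have := continuous_gk d p (3 / 2 * r); fun_prop) (fun z hz => by
      have h4 := gk_pos d p (by positivity : 0 < 3 / 2 * r) z.1
      have h5 : |⟪z.2, e⟫| ≤ 1 := (abs_real_inner_le_norm _ _).trans (by rw [he, mul_one]; exact hz)
      have h6 : ⟪z.2, e⟫ ^ 2 ≤ 1 := by rwa [sq_le_one_iff_abs_le_one]
      rw [abs_mul, abs_of_pos h4, abs_of_nonneg (by linarith)]
      nlinarith [sq_nonneg ⟪z.2, e⟫])
  have t3 : Tendsto (fun j => ε j * ‖p‖) UU (𝓝 0) := by simpa using h.eps.mul_const ‖p‖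
  have t4 := h.th_tendsto p hr
  have hev : ∀ᶠ j in UU, th d (vA (ε j) (u j)).fst p r ≤ η ∨ 2 - η ≤ th d (vA (ε j) (u j)).fst p r ∨
      (|th d (vA (ε j) (u j)).fst p r - 1| ≤ η ∧ u j (p + r • e) * u j (p - r • e) < 0) := by
    filter_upwards [t1.eventually (gt_mem_nhds h1), t2.eventually (gt_mem_nhds h2),
      t3.eventually (gt_mem_nhds (mul_pos hδ hr)), h.en.eventually (gt_mem_nhds (lt_add_one w))]
      with j a1 a2 a3 a4
    exact hQ' _ _ (h.pos j) (h.crit j) a4.le p r e hr h3 a3.le he a1.le a2.le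
  rcases Ultrafilter.eventually_or.1 hev with h4 | h4
  · exact Or.inl (le_of_tendsto t4 h4)
  rcases Ultrafilter.eventually_or.1 h4 with h4 | h4
  · exact Or.inr (Or.inl (ge_of_tendsto t4 h4))
  refine Or.inr (Or.inr ⟨le_of_tendsto (t4.sub_const 1).abs (h4.mono fun j hj => hj.1), ?_⟩)
  unfold ph
  split_ifs with a1 a2 a2
  · obtain ⟨j, b1, b2, b3⟩ := (h4.and (a1.and a2)).exists
    exact absurd (mul_nonneg b2 b3) (not_le.2 b1.2)
  · norm_num
  · norm_num
  · obtain ⟨j, b1, b2, b3⟩ :=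
      (h4.and ((Ultrafilter.eventually_not.2 a1).and (Ultrafilter.eventually_not.2 a2))).exists
    exact absurd (mul_pos_of_neg_of_neg (not_le.1 b2) (not_le.1 b3)).le (not_le.2 b1.2)

theorem stLim' (hB : Bas) (hQ : StQ E) : StLim E := by
  intro d hE hd w ε u hε hε0 hu hEn
  have hn : 3 ≤ finrank ℝ E := by omega
  have hw : 0 ≤ w := ge_of_tendsto' hEn fun j => En_nonneg (hε j)
  rcases hw.eq_or_lt with hw | hw
  · subst hw
    refine ⟨0, fun _ => 1, ⟨⟨⟨by simp, fun p r _ => by simp, fun X _ _ => by simp⟩,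
      fun p r _ => by simp [th]⟩, ⟨1, one_pos, fun p hp => by simp at hp⟩,
      ⟨fun _ => Or.inl rfl, fun _ _ => by simp⟩, fun η hη => ⟨1, one_pos, fun p r e _ _ _ _ =>
        Or.inl (by simp [th, hη.le])⟩⟩, by simp [VCone], by simp [th]⟩
  obtain ⟨K, hK, c, hc, hAC⟩ := exists_AC hE hd
  have hU : UU ≤ atTop := by
    rw [← Nat.cofinite_eq_atTop]
    exact hyperfilter_le_cofinite
  have hen := hEn.mono_left hU
  obtain ⟨V, h1, h2, h3⟩ := hB.comp E d ℕ (hyperfilter ℕ) (fun j => vA (ε j) (u j))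
    (fun j => (ae_vA hn (hε j) (hu j)).mono fun z hz => hz.2.1)
    (fun r hr => ⟨w + 1, by
      filter_upwards [hen.eventually (gt_mem_nhds (lt_add_one w))] with j hj
      exact ⟨(integrable_mu hn (hε j) (hu j) 0 hr).1, by
        rw [th_zero hE (hε j) (hu j) hr]; exact hj.le⟩⟩)
  have h : LD d K c w ε u V := ⟨hE, hd, hK, hc, hw, hε, hu, fun j => hAC _ _ (hε j) (hu j),
    hε0.mono_left hU, hen, h1, h2, h3⟩
  refine ⟨V, ph u, ⟨⟨h.sv0, fun p r hr => ?_⟩, h.lower (hB.mono E), h.col,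
    h.quant (hB.cacc E) hQ⟩, h.vcone, h.th_zero one_pos⟩
  rw [← h.th_zero one_pos]
  exact (hB.cone E d hE V h.sv0 h.vcone).2.2 p r hr

end Crest.Agent.R246.B1
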