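import Crest.Agent.R246.B1.LimC

/-! Row 246, block B1: final statements (see `R246/Blueprint.lean`). -/

set_option autoImplicit false

namespace Crest.Agent.R246

theorem stAC : All fun E => StAC E := fun _ _ _ _ _ _ => B1.stAC'

theorem stLim (hB : Bas) (hQ : All fun E => StQ E) : All fun E => StLim E :=
  fun E _ _ _ _ _ => B1.stLim' hB (hQ E)

end Crest.Agent.R246
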