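import Crest.Agent.R246.B1.Calc

/-!
# Row 246, block B1: Modica's estimate and clearing out
-/

set_option autoImplicit false
set_option linter.unusedSectionVars false

open MeasureTheory Metric Filter Topology Set Module
open scoped RealInnerProductSpace ENNReal ContDiff Real

noncomputable section

namespace Crest.Agent.R246.B1

variable {E : Type} [NormedAddCommGroup E] [InnerProductSpace ℝ E] [FiniteDimensional ℝ E]
  [MeasurableSpace E] [BorelSpace E]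

variable {ε : ℝ} {u : E → ℝ}

theorem bessel2 (v : E) {a g : E} (ha : ‖a‖ = 1) (hag : ⟪a, g⟫ = 0) :
    ‖g‖ ^ 2 * ⟪v, a⟫ ^ 2 + ⟪v, g⟫ ^ 2 ≤ ‖g‖ ^ 2 * ‖v‖ ^ 2 := by
  have h1 : ⟪v - ⟪v, a⟫ • a, g⟫ = ⟪v, g⟫ := by simp [inner_sub_left, inner_smul_left, hag]
  have h2 : ‖v - ⟪v, a⟫ • a‖ ^ 2 = ‖v‖ ^ 2 - ⟪v, a⟫ ^ 2 := by
    rw [norm_sub_sq_real, inner_smul_right, norm_smul, ha, Real.norm_eq_abs, mul_one, sq_abs]
    ring
  have h3 := real_inner_mul_inner_self_le (v - ⟪v, a⟫ • a) g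
  rw [h1, real_inner_self_eq_norm_sq, real_inner_self_eq_norm_sq, h2] at h3
  nlinarith

theorem sm_GG {f g : E → ℝ} (hf : Sm f) (hg : Sm g) : Sm (GG f g) :=
  Sm.sum fun _ => (hf.dir _).mul (hg.dir _)

theorem sm_LL {f : E → ℝ} (hf : Sm f) : Sm (LL f) := Sm.sum fun _ => (hf.dir _).dir _

theorem hom_u (h : Crit ε u) : ∀ t : ℝ, 0 < t → ∀ y, u (t • y) = t ^ (0 : ℤ) * u y :=
  fun t ht y => by rw [h.hom t ht, zpow_zero, one_mul]

theorem hom_D (h : Crit ε u) (v : E) :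
    ∀ t : ℝ, 0 < t → ∀ y, D v u (t • y) = t ^ (-1 : ℤ) * D v u y := by
  simpa using D_hom (hom_u h) v

theorem hom_GG (h : Crit ε u) :
    ∀ t : ℝ, 0 < t → ∀ y, GG u u (t • y) = t ^ (-2 : ℤ) * GG u u y := fun t ht y => by
  simp only [GG, hom_D h _ t ht, Finset.mul_sum]
  refine Finset.sum_congr rfl fun i _ => ?_
  rw [show (-2 : ℤ) = -1 + -1 by norm_num, zpow_add₀ ht.ne']
  ring

theorem radial (h : Crit ε u) {y : E} (hy : y ≠ 0) : D y u y = 0 := by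
  simpa using euler (hom_u h) (Sm.diff h.smooth hy)

theorem crit_LL (h : Crit ε u) {y : E} (hy : y ≠ 0) :
    ε ^ 2 * (‖y - 0‖ ^ 2 * LL u y) = u y * u y * u y - u y := by
  rw [Sm.LL_eq h.smooth hy, sub_zero, ← mul_assoc, h.eq y hy]
  ring

theorem crit_D_LL (h : Crit ε u) {y : E} (hy : y ≠ 0) (v : E) :
    ε ^ 2 * (2 * ⟪y, v⟫ * LL u y + ‖y‖ ^ 2 * D v (LL u) y) = (3 * u y ^ 2 - 1) * D v u y := by
  have hu : Sm u := h.smooth
  have h1 := D_congr (fun x hx => crit_LL h hx) v hy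
  rw [D_const_mul (((sm_norm_sq 0).mul (sm_LL hu)).diff hy),
    D_mul ((sm_norm_sq 0).diff hy) ((sm_LL hu).diff hy), D_norm_sq,
    D_sub (((hu.mul hu).mul hu).diff hy) (hu.diff hy), D_mul ((hu.mul hu).diff hy) (hu.diff hy),
    D_mul (hu.diff hy) (hu.diff hy), sub_zero] at h1
  linarith

theorem D_ff {y : E} (hu : DifferentiableAt ℝ u y) (v : E) :
    D v (fun x => 1 - u x * u x) y = -2 * u y * D v u y := by
  rw [D_sub (differentiableAt_const _) (hu.fun_mul hu), D_mul hu hu, D_const]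
  ring

theorem LL_ff (hu : Sm u) {y : E} (hy : y ≠ 0) :
    LL (fun x => 1 - u x * u x) y = -(2 * u y * LL u y + 2 * GG u u y) := by
  rw [(sm_const 1).LL_sub (hu.mul hu) hy, LL_const, hu.LL_mul hu hy]
  ring

theorem D_GG (hu : Sm u) {y : E} (hy : y ≠ 0) (v : E) :
    D v (GG u u) y = 2 * D (gradient u y) (D v u) y := by
  have : GG u u = fun x => ∑ i, D (bs i) u x * D (bs i) u x := rfl
  rw [this, D_sum fun i => ((hu.dir _).mul (hu.dir _)).diff hy, D_eq_sum (gradient u y),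
    Finset.mul_sum]
  refine Finset.sum_congr rfl fun i _ => ?_
  rw [D_mul ((hu.dir _).diff hy) ((hu.dir _).diff hy), real_inner_comm, inner_gradient,
    hu.D_comm v _ hy]
  ring

/-- the Modica function -/
def PP (ε : ℝ) (u : E → ℝ) (y : E) : ℝ :=
  ε ^ 2 / 2 * (‖y - 0‖ ^ 2 * GG u u y) - 1 / 4 * ((1 - u y * u y) * (1 - u y * u y))

theorem sm_ff (hu : Sm u) : Sm fun x => 1 - u x * u x := (sm_const 1).sub (hu.mul hu)

theorem sm_PP (hu : Sm u) (ε : ℝ) : Sm (PP ε u) :=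
  ((sm_const _).mul ((sm_norm_sq 0).mul (sm_GG hu hu))).sub
    ((sm_const _).mul ((sm_ff hu).mul (sm_ff hu)))

theorem PP_smul (h : Crit ε u) {t : ℝ} (ht : 0 < t) (y : E) : PP ε u (t • y) = PP ε u y := by
  simp only [PP, hom_GG h t ht, h.hom t ht, sub_zero, norm_smul, Real.norm_eq_abs, mul_pow, sq_abs,
    zpow_neg, zpow_ofNat]
  field_simp

theorem LL_PP (h : Crit ε u) {y : E} (hy1 : ‖y‖ = 1) :
    ε ^ 2 * LL (PP ε u) y = ε ^ 4 * ∑ i, GG (D (bs i) u) (D (bs i) u) y +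
      ε ^ 4 * (finrank ℝ E - 4) * GG u u y - (u y ^ 3 - u y) ^ 2 := by
  have hu : Sm u := h.smooth
  have hy : y ≠ 0 := by
    rintro rfl
    simp at hy1
  have hN := sm_GG hu hu
  have hf := sm_ff hu
  have e0 : PP ε u = fun y => ε ^ 2 / 2 * (‖y - 0‖ ^ 2 * GG u u y) -
    1 / 4 * ((1 - u y * u y) * (1 - u y * u y)) := rfl
  have e1 : LL (GG u u) y = 2 * ∑ i, D (bs i) u y * D (bs i) (LL u) y +
      2 * ∑ i, GG (D (bs i) u) (D (bs i) u) y := by
    have : GG u u = fun x => ∑ i, D (bs i) u x * D (bs i) u x := rfl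
    rw [this, LL_sum (fun i => (hu.dir _).mul (hu.dir _)) hy, Finset.mul_sum, Finset.mul_sum,
      ← Finset.sum_add_distrib]
    refine Finset.sum_congr rfl fun i _ => ?_
    rw [(hu.dir _).LL_mul (hu.dir _) hy, hu.LL_D _ hy]
    ring
  have e2 : ε ^ 2 * ∑ i, D (bs i) u y * D (bs i) (LL u) y = (3 * u y ^ 2 - 1) * GG u u y := by
    have h1 : ∑ i, ⟪bs i, y⟫ * D (bs i) u y = 0 := by rw [← D_eq_sum, radial h hy]
    have h2 : ∑ i, D (bs i) u y * (ε ^ 2 * (2 * ⟪y, bs i⟫ * LL u y + ‖y‖ ^ 2 * D (bs i) (LL u) y)) =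
        (3 * u y ^ 2 - 1) * GG u u y := by
      rw [GG, Finset.mul_sum]
      refine Finset.sum_congr rfl fun i _ => ?_
      rw [crit_D_LL h hy]
      ring
    rw [← h2, ← add_zero (ε ^ 2 * _), ← mul_zero (2 * ε ^ 2 * LL u y), ← h1, Finset.mul_sum,
      Finset.mul_sum, ← Finset.sum_add_distrib]
    refine Finset.sum_congr rfl fun i _ => ?_
    rw [hy1, real_inner_comm]
    ring
  have e3 : GG (fun x : E => ‖x - 0‖ ^ 2) (GG u u) y = -4 * GG u u y := by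
    have h1 := euler (hom_GG h) (hN.diff hy)
    rw [D_eq_sum] at h1
    have h2 : GG (fun x : E => ‖x - 0‖ ^ 2) (GG u u) y =
        2 * ∑ i, ⟪bs i, y⟫ * D (bs i) (GG u u) y := by
      rw [GG, Finset.mul_sum]
      refine Finset.sum_congr rfl fun i _ => ?_
      rw [D_norm_sq, sub_zero, real_inner_comm]
      ring
    rw [h2, h1]
    push_cast
    ring
  have e4 : GG (fun x => 1 - u x * u x) (fun x => 1 - u x * u x) y = 4 * u y ^ 2 * GG u u y := by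
    rw [GG, GG, Finset.mul_sum]
    refine Finset.sum_congr rfl fun i _ => ?_
    rw [D_ff (hu.diff hy)]
    ring
  have e5 := crit_LL h hy
  rw [e0, Sm.LL_sub ((sm_const _).mul ((sm_norm_sq 0).mul hN)) ((sm_const _).mul (hf.mul hf)) hy,
    ((sm_norm_sq 0).mul hN).LL_const_mul _ hy, (hf.mul hf).LL_const_mul _ hy,
    (sm_norm_sq 0).LL_mul hN hy, hf.LL_mul hf hy, LL_norm_sq, e1, e3, e4, LL_ff hu hy]
  rw [sub_zero, hy1] at e5 ⊢
  linear_combination ε ^ 2 * e2 - (u y ^ 3 - u y) * e5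

theorem hess_low (h : Crit ε u) {y : E} (hy1 : ‖y‖ = 1) (hc : fderiv ℝ (PP ε u) y = 0) :
    GG u u y * (ε ^ 4 * (2 * GG u u y) + (u y ^ 3 - u y) ^ 2) ≤
      GG u u y * (ε ^ 4 * ∑ i, GG (D (bs i) u) (D (bs i) u) y) := by
  have hu : Sm u := h.smooth
  have hy : y ≠ 0 := by
    rintro rfl
    simp at hy1
  have hN := sm_GG hu hu
  have hf := sm_ff hu
  have e0 : PP ε u = fun y => ε ^ 2 / 2 * (‖y - 0‖ ^ 2 * GG u u y) -
    1 / 4 * ((1 - u y * u y) * (1 - u y * u y)) := rfl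
  set g := gradient u y with hg
  have hgN : ‖g‖ ^ 2 = GG u u y := by rw [GG_eq, real_inner_self_eq_norm_sq]
  have e1 : ∀ v, ε ^ 2 * D g (D v u) y = (u y ^ 3 - u y) * D v u y - ε ^ 2 * ⟪y, v⟫ * GG u u y :=
    fun v => by
      have h1 : D v (PP ε u) y = 0 := by simp [D, hc]
      rw [e0, D_sub (((sm_const _).mul ((sm_norm_sq 0).mul hN)).diff hy)
        (((sm_const _).mul (hf.mul hf)).diff hy), D_const_mul (((sm_norm_sq 0).mul hN).diff hy),
        D_const_mul ((hf.mul hf).diff hy), D_mul ((sm_norm_sq 0).diff hy) (hN.diff hy),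
        D_mul (hf.diff hy) (hf.diff hy), D_ff (hu.diff hy), D_norm_sq, D_GG hu hy, sub_zero,
        hy1] at h1
      linear_combination h1
  have e2 : ∀ v, D y (D v u) y = -D v u y := fun v => by
    simpa using euler (hom_D h v) ((hu.dir v).diff hy)
  have e3 : ∀ v, GG u u y * D v u y ^ 2 * ε ^ 4 +
      ((u y ^ 3 - u y) * D v u y - ε ^ 2 * ⟪y, v⟫ * GG u u y) ^ 2 ≤
      GG u u y * (ε ^ 4 * GG (D v u) (D v u) y) := fun v => by
    have h1 := bessel2 (gradient (D v u) y) hy1 (g := g)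
      (by rw [real_inner_comm, inner_gradient, radial h hy])
    rw [inner_gradient, inner_gradient, e2, hgN, ← real_inner_self_eq_norm_sq (gradient _ _),
      ← GG_eq] at h1
    rw [← e1]
    nlinarith [mul_le_mul_of_nonneg_left h1 (by positivity : 0 ≤ ε ^ 4)]
  have h1 : ∑ i, ⟪bs i, y⟫ * D (bs i) u y = 0 := by rw [← D_eq_sum, radial h hy]
  have h2 : ∑ i, ⟪bs i, y⟫ * ⟪bs i, y⟫ = 1 := by
    rw [sum_inner, real_inner_self_eq_norm_sq, hy1, one_pow]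
  have h3 : ∑ i, D (bs i) u y * D (bs i) u y = GG u u y := rfl
  rw [Finset.mul_sum, Finset.mul_sum]
  refine le_trans (le_of_eq ?_) (Finset.sum_le_sum fun i _ => e3 (bs i))
  have h4 : ∀ i, GG u u y * D (bs i) u y ^ 2 * ε ^ 4 +
      ((u y ^ 3 - u y) * D (bs i) u y - ε ^ 2 * ⟪y, bs i⟫ * GG u u y) ^ 2 =
      (GG u u y * ε ^ 4 + (u y ^ 3 - u y) ^ 2) * (D (bs i) u y * D (bs i) u y) -
        2 * (u y ^ 3 - u y) * ε ^ 2 * GG u u y * (⟪bs i, y⟫ * D (bs i) u y) +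
        ε ^ 4 * GG u u y ^ 2 * (⟪bs i, y⟫ * ⟪bs i, y⟫) := fun i => by
    rw [real_inner_comm]
    ring
  simp only [h4, Finset.sum_add_distrib, Finset.sum_sub_distrib, ← Finset.mul_sum, h1, h2, h3]
  ring

/-- `P = ε²|y|²|∇u|²/2 - W(u)` is `0`-homogeneous; at a positive maximum
`ΔP = ε²(n-4)N + ε²|H|² - W'²/ε² ≥ ε²(n-2)N > 0`. -/
theorem modica (hn : 3 ≤ finrank ℝ E) (hε : 0 < ε) (h : Crit ε u) (y : E) :
    ε ^ 2 * ‖y‖ ^ 2 * ‖gradient u y‖ ^ 2 ≤ 2 * W (u y) := by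
  have hu : Sm u := h.smooth
  have hW : 0 ≤ W (u y) := by
    unfold W
    positivity
  rcases eq_or_ne y 0 with rfl | hy
  · simpa using hW
  by_contra hcon
  have hpos : 0 < PP ε u y := by
    have := GG_eq u u y
    rw [real_inner_self_eq_norm_sq] at this
    simp only [PP, this, sub_zero]
    unfold W at hcon
    nlinarith
  have hun : ∀ x : E, x ≠ 0 → ‖x‖⁻¹ • x ∈ sphere (0 : E) 1 := fun x hx => by
    simp [norm_smul, norm_ne_zero_iff.2 hx]
  have hne : ∀ x ∈ sphere (0 : E) 1, x ≠ 0 := fun x hx => by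
    rintro rfl
    simp at hx
  obtain ⟨z, hz, hmax⟩ := (isCompact_sphere (0 : E) 1).exists_isMaxOn ⟨_, hun y hy⟩
    ((sm_PP hu ε).continuousOn.mono hne)
  have hall : ∀ x, x ≠ 0 → PP ε u x ≤ PP ε u z := fun x hx => by
    rw [← PP_smul h (inv_pos.2 (norm_pos_iff.2 hx)) x]
    exact hmax (hun x hx)
  have hloc : IsLocalMax (PP ε u) z := by
    filter_upwards [isOpen_compl_singleton.mem_nhds (hne z hz)] with x hx using hall x hx
  have hz1 : ‖z‖ = 1 := by simpa using hz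
  have hN : 0 < GG u u z := by
    have h1 := hpos.trans_le (hall y hy)
    simp only [PP, sub_zero, hz1] at h1
    by_contra hle
    nlinarith [mul_self_nonneg (1 - u z * u z), sq_nonneg ε]
  have h1 := (sm_PP hu ε).LL_nonpos (hne z hz) hloc
  have h2 := LL_PP h hz1
  have h3 := hess_low h hz1 hloc.fderiv_eq_zero
  have h4 : (3 : ℝ) ≤ finrank ℝ E := by exact_mod_cast hn
  have h5 : ε ^ 4 * (2 * GG u u z) + (u z ^ 3 - u z) ^ 2 ≤
      ε ^ 4 * ∑ i, GG (D (bs i) u) (D (bs i) u) z :=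
    le_of_mul_le_mul_left (by linarith) hN
  have h6 : 0 < ε ^ 4 * GG u u z := by positivity
  nlinarith [mul_nonneg (sq_nonneg ε) (neg_nonneg.2 h1)]

/-- `f = 1-u²` has `ε²|y|²Δf ≥ f/2` where `f ≤ 1/2`; maximise `f - |y-q|²/(2s²)`. -/
theorem clear (hn : 3 ≤ finrank ℝ E) (hε : 0 < ε) (h : Crit ε u) {q : E} {s R : ℝ} (hs : 0 < s)
    (h0 : ∀ y ∈ closedBall q s, y ≠ 0 ∧ ‖y‖ ≤ R ∧ 1 - u y ^ 2 ≤ 1 / 2) :
    1 - u q ^ 2 ≤ 2 * finrank ℝ E * ε ^ 2 * R ^ 2 / s ^ 2 := by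
  have hu : Sm u := h.smooth
  have hf := sm_ff hu
  set F : E → ℝ := fun x => (1 - u x * u x) - 1 / (2 * s ^ 2) * ‖x - q‖ ^ 2 with hF
  have hFs : Sm F := hf.sub ((sm_const _).mul (sm_norm_sq q))
  obtain ⟨z, hz, hmax⟩ := (isCompact_closedBall q s).exists_isMaxOn ⟨q, mem_closedBall_self hs.le⟩
    (hFs.continuousOn.mono fun x hx => (h0 x hx).1)
  obtain ⟨hz0, hzR, hz2⟩ := h0 z hz
  have hq : 1 - u q ^ 2 ≤ (1 - u z * u z) - 1 / (2 * s ^ 2) * ‖z - q‖ ^ 2 := by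
    have := hmax (mem_closedBall_self hs.le)
    simpa [hF, sq] using this
  by_contra hcon
  have hpos : 0 < 1 - u q ^ 2 := lt_of_le_of_lt (by positivity) (not_le.1 hcon)
  have hint : ‖z - q‖ < s := by
    refine lt_of_le_of_ne (by simpa [dist_eq_norm] using hz) fun he => ?_
    rw [he] at hq
    have : 1 / (2 * s ^ 2) * s ^ 2 = 1 / 2 := by field_simp
    nlinarith
  have hloc : IsLocalMax F z := hmax.isLocalMax
    (mem_of_superset (isOpen_ball.mem_nhds (by simpa [dist_eq_norm] using hint))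
      ball_subset_closedBall)
  have h1 := hFs.LL_nonpos hz0 hloc
  rw [hF, Sm.LL_sub hf ((sm_const _).mul (sm_norm_sq q)) hz0, (sm_norm_sq q).LL_const_mul _ hz0,
    LL_norm_sq, LL_ff hu hz0] at h1
  have h2 := crit_LL h hz0
  have h3 := modica hn hε h z
  rw [← real_inner_self_eq_norm_sq (gradient u z), ← GG_eq] at h3
  rw [sub_zero] at h2
  unfold W at h3
  have h4 : 0 ≤ 1 / (2 * s ^ 2) * ‖z - q‖ ^ 2 := by positivity
  set f := 1 - u z * u z with hfd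
  have hf0 : 0 < f := by linarith
  have h5 : ε ^ 2 * ‖z‖ ^ 2 * (-(2 * u z * LL u z + 2 * GG u u z)) ≤
      ε ^ 2 * ‖z‖ ^ 2 * (finrank ℝ E / s ^ 2) := by
    refine mul_le_mul_of_nonneg_left ?_ (by positivity)
    have : 1 / (2 * s ^ 2) * (2 * (finrank ℝ E : ℝ)) = finrank ℝ E / s ^ 2 := by field_simp
    linarith
  have h6 : f / 2 ≤ ε ^ 2 * ‖z‖ ^ 2 * (-(2 * u z * LL u z + 2 * GG u u z)) := by
    have e1 : ε ^ 2 * ‖z‖ ^ 2 * (-(2 * u z * LL u z + 2 * GG u u z)) =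
        2 * (1 - f) * f - 2 * (ε ^ 2 * ‖z‖ ^ 2 * GG u u z) := by
      rw [hfd]
      linear_combination (-2 * u z) * h2
    have e2 : 1 - u z ^ 2 = f := by rw [hfd, sq]
    rw [e2] at h3 hz2
    nlinarith
  have h7 : ε ^ 2 * ‖z‖ ^ 2 * (finrank ℝ E / s ^ 2) ≤ ε ^ 2 * R ^ 2 * (finrank ℝ E / s ^ 2) := by
    gcongr
  refine hcon ?_
  have : 2 * finrank ℝ E * ε ^ 2 * R ^ 2 / s ^ 2 = 2 * (ε ^ 2 * R ^ 2 * (finrank ℝ E / s ^ 2)) := by
    ring
  linarith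

end Crest.Agent.R246.B1
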