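import Crest.Agent.R246.B1.Stress

/-!
# Row 246, block B1: almost monotonicity
-/

set_option autoImplicit false
set_option linter.unusedSectionVars false

open MeasureTheory Metric Filter Topology Set Module
open scoped RealInnerProductSpace ENNReal ContDiff Real

noncomputable section

namespace Crest.Agent.R246.B1

variable {E : Type} [NormedAddCommGroup E] [InnerProductSpace ℝ E] [FiniteDimensional ℝ E]
  [MeasurableSpace E] [BorelSpace E]

variable {d : ℕ} {ε : ℝ} {u : E → ℝ}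

theorem kap_bound (d : ℕ) (p : E) {r : ℝ} (hr : 0 < r) (z : E × E) (hz : ‖z.2‖ ≤ 1) :
    0 ≤ (1 - ‖z.2‖ ^ 2) * gk d p r z.1 ∧ |(1 - ‖z.2‖ ^ 2) * gk d p r z.1| ≤ 1 * gk d p r z.1 := by
  have h1 := gk_pos d p hr z.1
  have h2 : 0 ≤ 1 - ‖z.2‖ ^ 2 := by nlinarith [norm_nonneg z.2]
  refine ⟨by positivity, ?_⟩
  rw [abs_of_nonneg (by positivity)]
  nlinarith [sq_nonneg ‖z.2‖]

theorem kap_cont (d : ℕ) (p : E) (r : ℝ) :
    Continuous fun z : E × E => (1 - ‖z.2‖ ^ 2) * gk d p r z.1 := by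
  have := continuous_gk d p r
  fun_prop

theorem abs_divT_le (X : E → E) {z : E × E} (hz : ‖z.2‖ ≤ 1) :
    |divT X z| ≤ (finrank ℝ E + 1) * ‖fderiv ℝ X z.1‖ := by
  have a1 := abs_trc_le (fderiv ℝ X z.1)
  have a2 : |⟪z.2, fderiv ℝ X z.1 z.2⟫| ≤ ‖fderiv ℝ X z.1‖ := by
    refine (abs_real_inner_le_norm _ _).trans ?_
    calc _ ≤ 1 * (‖fderiv ℝ X z.1‖ * 1) := by
          gcongr
          exact ((fderiv ℝ X z.1).le_opNorm z.2).trans (by gcongr)
      _ = _ := by ring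
  refine (abs_sub _ _).trans ?_
  linarith

theorem meas_gk_div (d : ℕ) (p : E) (r : ℝ) : Measurable fun y : E => gk d p r y / ‖y‖ := by
  have := (continuous_gk d p r).measurable
  fun_prop

theorem integ_gk (hn : 3 ≤ finrank ℝ E) (hε : 0 < ε) (h : Crit ε u) (p : E) {r : ℝ} (hr : 0 < r) :
    Integrable (fun z : E × E => gk d p r z.1) (vA ε u) :=
  (integrable_fst _ (continuous_gk d p r).measurable).1 (integrable_mu hn hε h p hr).1

theorem integ_gk_div (hn : 3 ≤ finrank ℝ E) (hε : 0 < ε) (h : Crit ε u) (p : E) {r : ℝ}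
    (hr : 0 < r) : Integrable (fun z : E × E => gk d p r z.1 / ‖z.1‖) (vA ε u) :=
  (integrable_fst _ (meas_gk_div d p r)).1 (integrable_mu hn hε h p hr).2

theorem integ_kap (hn : 3 ≤ finrank ℝ E) (hε : 0 < ε) (h : Crit ε u) (p : E) {r : ℝ} (hr : 0 < r) :
    Integrable (fun z : E × E => (1 - ‖z.2‖ ^ 2) * gk d p r z.1) (vA ε u) :=
  (integ_gk hn hε h p hr).mono' (kap_cont d p r).aestronglyMeasurable
    ((ae_vA hn hε h).mono fun z hz => by simpa using (kap_bound d p hr z hz.2.1).2)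

theorem abs_A_le (d : ℕ) (p : E) {r : ℝ} (hr : 0 < r) {z : E × E} (h0 : z.1 ≠ 0) (hz : ‖z.2‖ ≤ 1) :
    |(1 - ‖z.2‖ ^ 2) * gk d p r z.1 * (⟪p, z.1⟫ / ‖z.1‖ ^ 2)| ≤ ‖p‖ * (gk d p r z.1 / ‖z.1‖) := by
  have a0 := norm_pos_iff.2 h0
  have a1 := gk_pos d p hr z.1
  have a2 : |⟪p, z.1⟫ / ‖z.1‖ ^ 2| ≤ ‖p‖ / ‖z.1‖ := by
    rw [abs_div, abs_of_pos (by positivity : 0 < ‖z.1‖ ^ 2), div_le_div_iff₀ (by positivity) a0]
    nlinarith [abs_real_inner_le_norm p z.1]
  rw [abs_mul]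
  calc _ ≤ 1 * gk d p r z.1 * (‖p‖ / ‖z.1‖) :=
        mul_le_mul (kap_bound d p hr z hz).2 a2 (abs_nonneg _) (by positivity)
    _ = _ := by ring

theorem integ_A (hn : 3 ≤ finrank ℝ E) (hε : 0 < ε) (h : Crit ε u) (p : E) {r : ℝ} (hr : 0 < r) :
    Integrable (fun z : E × E => (1 - ‖z.2‖ ^ 2) * gk d p r z.1 * (⟪p, z.1⟫ / ‖z.1‖ ^ 2))
      (vA ε u) :=
  ((integ_gk_div hn hε h p hr).const_mul ‖p‖).mono'
    (Measurable.aestronglyMeasurable (by have := (continuous_gk d p r).measurable; fun_prop))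
    ((ae_vA hn hε h).mono fun z hz => abs_A_le d p hr hz.1 hz.2.1)

theorem kap_contOn (hn : 3 ≤ finrank ℝ E) (hε : 0 < ε) (h : Crit ε u) (p : E) {a : ℝ} (ha : 0 < a)
    (b : ℝ) : ContinuousOn (fun r => (∫ z, (1 - ‖z.2‖ ^ 2) * gk d p r z.1 ∂vA ε u) / r) (Icc a b) :=
  fun r hr => by
    have h0 : 0 < r := ha.trans_le hr.1
    have h1 := hasDerivAt_int d (vA ε u) measurable_fst (κ := fun z => 1 - ‖z.2‖ ^ 2) (by fun_prop)
      ((ae_vA hn hε h).mono fun z hz => abs_le.2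
        ⟨by nlinarith [norm_nonneg z.2, hz.2.1], by nlinarith [sq_nonneg ‖z.2‖]⟩) p
      (fun s hs => integ_gk hn hε h p hs) h0
    exact (h1.continuousAt.div continuousAt_id h0.ne').continuousWithinAt

/-- `stress` with `X = G (y-p)` (`B2.divT_smul`, `B2.gk_dom`) and `hasDerivAt_int`:
`r ∂_r th = ∫⟪w,y-p⟫²G/r² + ∫κG⟪p,y⟫/|y|²` -/
theorem hasDerivAt_th (hE : finrank ℝ E = d + 1) (hd : 2 ≤ d) (hε : 0 < ε) (h : Crit ε u) (p : E)
    {r : ℝ} (hr : 0 < r) : ∃ θ' : ℝ, HasDerivAt (th d (vA ε u).fst p) θ' r ∧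
      (∫ z, (1 - ‖z.2‖ ^ 2) * gk d p r z.1 * (⟪p, z.1⟫ / ‖z.1‖ ^ 2) ∂vA ε u) / r ≤ θ' := by
  have hn : 3 ≤ finrank ℝ E := by omega
  have h1 := hasDerivAt_int d (vA ε u) measurable_fst (κ := fun _ => 1) measurable_const (by simp) p
    (fun s hs => integ_gk hn hε h p hs) hr
  simp only [one_mul] at h1
  refine ⟨_, h1.congr_of_eventuallyEq (Eventually.of_forall fun s =>
    integral_fst _ (continuous_gk d p s).measurable), ?_⟩
  set X : E → E := fun x => gk d p r x • (x - p) with hX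
  have hXc : ContDiff ℝ 1 X := (contDiff_gk d p r).smul (contDiff_id.sub contDiff_const)
  obtain ⟨L, hL⟩ := B2.gk_dom d p hr
  obtain ⟨K, hK, hsq⟩ := B2.gk_sq (E := E) d
  have hG := gk_pos d p hr
  have hGm := (continuous_gk d p r).measurable
  have b0 : ∀ y, ‖X y‖ ≤ (1 + 1 / r ^ 2) * L * gk d 0 (2 * r) y := fun y => by
    have a1 := mul_le_mul_of_nonneg_left (hL y) (by positivity : 0 ≤ 1 + 1 / r ^ 2)
    have a2 := hG y
    have a3 := norm_nonneg (y - p)
    rw [hX, norm_smul, Real.norm_eq_abs, abs_of_pos a2, mul_assoc]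
    refine le_trans ?_ a1
    have : 0 ≤ 1 / r ^ 2 * ((1 + ‖y - p‖) ^ 2 * gk d p r y) := by positivity
    nlinarith [mul_nonneg a3 a2.le, mul_nonneg (sq_nonneg ‖y - p‖) a2.le]
  have b1 : ∀ y, ‖fderiv ℝ X y‖ ≤ (1 + 1 / r ^ 2) * L * gk d 0 (2 * r) y := fun y => by
    have a1 := mul_le_mul_of_nonneg_left (hL y) (by positivity : 0 ≤ 1 + 1 / r ^ 2)
    have a2 := hG y
    have a3 := norm_nonneg (y - p)
    have a4 := ((B2.hasGradientAt_gk d p r y).hasFDerivAt.smul
      ((hasFDerivAt_id y).sub_const p)).fderiv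
    rw [show X = gk d p r • fun x => id x - p from rfl, a4, mul_assoc]
    refine (norm_add_le _ _).trans (le_trans ?_ a1)
    rw [norm_smul, ContinuousLinearMap.norm_smulRight_apply, LinearIsometryEquiv.norm_map,
      norm_smul, Real.norm_eq_abs, Real.norm_eq_abs, abs_of_pos a2, abs_div, abs_neg,
      abs_of_pos a2, abs_of_pos (by positivity : 0 < r ^ 2), id]
    have a5 := mul_le_mul_of_nonneg_left (ContinuousLinearMap.norm_id_le (𝕜 := ℝ) (E := E)) a2.le
    have a6 : 0 ≤ 1 / r ^ 2 * gk d p r y := by positivity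
    have a7 : gk d p r y / r ^ 2 = 1 / r ^ 2 * gk d p r y := by ring
    rw [a7]
    nlinarith [mul_nonneg a3 a2.le, mul_nonneg (sq_nonneg ‖y - p‖) a2.le, mul_nonneg a3 a6]
  have h2 := stress hn hε h X _ (2 * r) (by positivity) hXc b0 b1
  have i1 := integ_kap (d := d) hn hε h p hr
  have i2 := integ_A (d := d) hn hε h p hr
  have i3 : Integrable (divT X) (vA ε u) :=
    ((integ_gk (d := d) hn hε h 0 (by positivity : 0 < 2 * r)).const_mul
      ((finrank ℝ E + 1) * ((1 + 1 / r ^ 2) * L))).mono' (continuous_divT hXc).aestronglyMeasurable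
      ((ae_vA hn hε h).mono fun z hz => by
        refine (abs_divT_le X hz.2.1).trans ?_
        rw [mul_assoc]
        exact mul_le_mul_of_nonneg_left (b1 _) (by positivity))
  have i4 : Integrable (fun z : E × E => ‖z.1 - p‖ ^ 2 * gk d p r z.1) (vA ε u) :=
    ((integ_gk (d := d) hn hε h p (by positivity : 0 < 2 * r)).const_mul (K * r ^ 2)).mono'
      (Measurable.aestronglyMeasurable (by fun_prop)) (Eventually.of_forall fun z => by
        rw [Real.norm_eq_abs, abs_of_nonneg (mul_nonneg (sq_nonneg _) (hG _).le)]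
        exact (hsq p r z.1 hr).1)
  have i5 : Integrable (fun z : E × E => (‖z.1 - p‖ ^ 2 / r ^ 2 - d) / r * gk d p r z.1) (vA ε u) :=
    (((i4.div_const (r ^ 2)).sub ((integ_gk (d := d) hn hε h p hr).const_mul d)).div_const r).congr
      (Eventually.of_forall fun z => by simp only [Pi.sub_apply]; ring)
  have h3 : ∫ z, (1 - ‖z.2‖ ^ 2) * ⟪X z.1, z.1⟫ / ‖z.1‖ ^ 2 ∂vA ε u =
      ∫ z, (1 - ‖z.2‖ ^ 2) * gk d p r z.1 ∂vA ε u -
        ∫ z, (1 - ‖z.2‖ ^ 2) * gk d p r z.1 * (⟪p, z.1⟫ / ‖z.1‖ ^ 2) ∂vA ε u := by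
    rw [← integral_sub i1 i2]
    refine integral_congr_ae ((ae_vA hn hε h).mono fun z hz => ?_)
    have := norm_ne_zero_iff.2 hz.1
    simp only [hX, inner_smul_left, inner_sub_left, real_inner_self_eq_norm_sq, conj_trivial]
    field_simp
  have h4 : ∫ z, ((1 - ‖z.2‖ ^ 2) * gk d p r z.1 - divT X z) / r ∂vA ε u ≤
      ∫ z, (‖z.1 - p‖ ^ 2 / r ^ 2 - d) / r * gk d p r z.1 ∂vA ε u := by
    refine integral_mono ((i1.sub i3).div_const r) i5 fun z => ?_
    have a1 := B2.divT_smul (X := fun x => x - p) z.2 (B2.hasGradientAt_gk d p r z.1) (by fun_prop)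
    rw [B2.divT_sub_const, hE, inner_smul_left, inner_smul_left, real_inner_self_eq_norm_sq,
      real_inner_comm z.2] at a1
    simp only [conj_trivial] at a1
    have a2 : divT X z = _ := a1
    have a3 : 0 ≤ gk d p r z.1 / r ^ 2 * ⟪z.2, z.1 - p⟫ ^ 2 := by
      have := hG z.1
      positivity
    simp only [a2]
    rw [div_mul_eq_mul_div _ r (gk d p r z.1)]
    refine div_le_div_of_nonneg_right ?_ hr.le
    push_cast
    calc _ = (‖z.1 - p‖ ^ 2 / r ^ 2 - d) * gk d p r z.1 -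
          gk d p r z.1 / r ^ 2 * ⟪z.2, z.1 - p⟫ ^ 2 := by ring
      _ ≤ _ := by linarith
  rw [integral_div, integral_sub i1 i3, h2, h3, sub_sub_cancel] at h4
  exact h4

/-- `r ≥ |p|`: `gk_shift2`.  `r ≤ |p|`: `∂_r th ≥ -12 En/|p|` (`gk_neg`, `J_le`) -/
theorem th_upper (hE : finrank ℝ E = d + 1) (hd : 2 ≤ d) (hε : 0 < ε) (h : Crit ε u) (p : E)
    {r : ℝ} (hr : 0 < r) : th d (vA ε u).fst p r ≤ (2 ^ (d + 1) + 12) * En d ε u := by
  have hn : 3 ≤ finrank ℝ E := by omega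
  have hEn : 0 ≤ En d ε u := En_nonneg hε
  have big : ∀ s, 0 < s → ‖p‖ ≤ s → th d (vA ε u).fst p s ≤ 2 ^ (d + 1) * En d ε u := fun s hs hp => by
    rw [← th_zero hE hε h (by positivity : 0 < 2 * s), th, th, ← integral_const_mul]
    refine integral_mono (integrable_mu hn hε h p hs).1
      ((integrable_mu hn hε h 0 (by positivity)).1.const_mul _) fun y => ?_
    refine (gk_shift2 d p 0 hs y).trans ?_
    have a1 := (gk_pos d 0 (by positivity : 0 < 2 * s) y).le
    have a2 : Real.exp (‖p - 0‖ ^ 2 / (4 * s ^ 2)) ≤ 2 := by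
      rw [← Real.exp_log two_pos, Real.exp_le_exp, div_le_iff₀ (by positivity), sub_zero]
      nlinarith [Real.log_two_gt_d9, norm_nonneg p, sq_nonneg s]
    rw [pow_succ 2 d]
    gcongr
  rcases le_total ‖p‖ r with hp | hp
  · nlinarith [big r hr hp]
  have hpn : 0 < ‖p‖ := hr.trans_le hp
  have key := intervalIntegral.integral_le_sub_of_hasDeriv_right_of_le hp
    (g := th d (vA ε u).fst p) (g' := deriv (th d (vA ε u).fst p))
    (φ := fun _ => -(12 * En d ε u / ‖p‖))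
    (fun s hs => by
      obtain ⟨θ', h1, -⟩ := hasDerivAt_th hE hd hε h p (hr.trans_le hs.1)
      exact h1.continuousAt.continuousWithinAt)
    (fun s hs => by
      obtain ⟨θ', h1, -⟩ := hasDerivAt_th hE hd hε h p (hr.trans hs.1)
      exact h1.differentiableAt.hasDerivAt.hasDerivWithinAt)
    continuousOn_const.integrableOn_Icc
    (fun s hs => by
      have h0 : 0 < s := hr.trans hs.1
      obtain ⟨θ', h1, h2⟩ := hasDerivAt_th hE hd hε h p h0
      rw [h1.deriv]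
      refine le_trans ?_ h2
      have h3 := integral_mono_ae (((integ_gk_div (d := d) hn hε h 0 h0).const_mul
        (‖p‖ * Real.exp (-‖p‖ ^ 2 / (2 * s ^ 2)))).neg) (integ_A (d := d) hn hε h p h0)
        ((ae_vA hn hε h).mono fun z hz => by
          have a1 := gk_pos d 0 h0 z.1
          simp only [Pi.neg_apply]
          rcases le_total 0 ⟪p, z.1⟫ with a2 | a2
          · exact le_trans (neg_nonpos.2 (by positivity))
              (mul_nonneg (kap_bound d p h0 z hz.2.1).1 (by positivity))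
          · refine le_trans (neg_le_neg ?_) (neg_le_of_abs_le (abs_A_le d p h0 hz.1 hz.2.1))
            rw [mul_assoc, ← mul_div_assoc (Real.exp _)]
            exact mul_le_mul_of_nonneg_left
              (div_le_div_of_nonneg_right (gk_neg d a2 h0) (norm_nonneg _)) (norm_nonneg _))
      simp only [Pi.neg_apply] at h3
      rw [integral_neg, integral_const_mul, ← integral_fst _ (meas_gk_div d 0 s)] at h3
      have h4 := mul_le_mul_of_nonneg_left (J_le hE hd hε h h0)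
        (by positivity : 0 ≤ ‖p‖ * Real.exp (-‖p‖ ^ 2 / (2 * s ^ 2)))
      have h5 : ‖p‖ ^ 2 / s ^ 2 * Real.exp (-‖p‖ ^ 2 / (2 * s ^ 2)) ≤ 1 := by
        have e1 : -‖p‖ ^ 2 / (2 * s ^ 2) = -(‖p‖ ^ 2 / s ^ 2 / 4 + ‖p‖ ^ 2 / s ^ 2 / 4) := by ring
        rw [e1, Real.exp_neg, ← div_eq_mul_inv, div_le_one (Real.exp_pos _), Real.exp_add]
        have h6 : 0 ≤ ‖p‖ ^ 2 / s ^ 2 := by positivity
        generalize ‖p‖ ^ 2 / s ^ 2 = t at h6
        have := Real.add_one_le_exp (t / 4)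
        nlinarith [sq_nonneg (1 - t / 4)]
      rw [le_div_iff₀ h0]
      refine le_trans ?_ ((neg_le_neg h4).trans h3)
      rw [neg_mul, neg_le_neg_iff]
      calc _ = ‖p‖ ^ 2 / s ^ 2 * Real.exp (-‖p‖ ^ 2 / (2 * s ^ 2)) * (12 * En d ε u / ‖p‖ * s) := by
            field_simp
        _ ≤ 1 * (12 * En d ε u / ‖p‖ * s) := by gcongr
        _ = _ := one_mul _)
  rw [intervalIntegral.integral_const, smul_eq_mul] at key
  have h1 : (‖p‖ - r) * (12 * En d ε u / ‖p‖) ≤ ‖p‖ * (12 * En d ε u / ‖p‖) := by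
    gcongr
    linarith
  rw [mul_div_cancel₀ _ hpn.ne'] at h1
  nlinarith [big ‖p‖ hpn le_rfl]

/-- split at `|y| = |p|/2`; `th_upper`, `gk_near`, `J_le` -/
theorem inv_le (hE : finrank ℝ E = d + 1) (hd : 2 ≤ d) : ∃ K : ℝ, 0 ≤ K ∧
    ∀ (ε : ℝ) (u : E → ℝ), 0 < ε → Crit ε u → ∀ (p : E) (r : ℝ), 0 < r → p ≠ 0 →
      ∫ y, gk d p r y / ‖y‖ ∂(vA ε u).fst ≤ K * En d ε u / ‖p‖ := by
  have hn : 3 ≤ finrank ℝ E := by omega
  obtain ⟨K, hK, hnear⟩ := gk_near (E := E) d
  refine ⟨2 * (2 ^ (d + 1) + 12) + 12 * K, by positivity, fun ε u hε h p r hr hp => ?_⟩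
  have hpn := norm_pos_iff.2 hp
  have i1 := (integrable_mu (d := d) hn hε h p hr).1.const_mul (2 / ‖p‖)
  have i2 := (integrable_mu (d := d) hn hε h 0 hpn).2.const_mul K
  have h1 := integral_mono (integrable_mu (d := d) hn hε h p hr).2 (i1.add i2) fun y => by
    have a1 := gk_pos d p hr y
    have a2 := gk_pos d 0 hpn y
    simp only [Pi.add_apply]
    rcases le_total ‖y‖ (‖p‖ / 2) with hy | hy
    · refine le_add_of_nonneg_of_le (by positivity) ?_
      rw [← mul_div_assoc]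
      gcongr
      exact hnear p y r hr hp hy
    · refine le_add_of_le_of_nonneg ?_ (by positivity)
      calc _ ≤ gk d p r y / (‖p‖ / 2) := by gcongr
        _ = _ := by field_simp
  rw [integral_add' i1 i2, integral_const_mul, integral_const_mul] at h1
  refine h1.trans ?_
  calc _ ≤ 2 / ‖p‖ * ((2 ^ (d + 1) + 12) * En d ε u) + K * (12 * En d ε u / ‖p‖) := by
        gcongr
        · exact th_upper hE hd hε h p hr
        · exact J_le hE hd hε h hpn
    _ = _ := by ring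

/-- `⟪p,y⟫/|y|² ≥ 1 - |y-p|/|y|`, `B2.gk_sq`, `inv_le`,
`intervalIntegral.integral_le_sub_of_hasDeriv_right_of_le` -/
theorem mono_ac (hE : finrank ℝ E = d + 1) (hd : 2 ≤ d) : ∃ K : ℝ, 0 ≤ K ∧
    ∀ (ε : ℝ) (u : E → ℝ), 0 < ε → Crit ε u → ∀ (p : E) (a b : ℝ), 0 < a → a ≤ b → b ≤ ‖p‖ →
      th d (vA ε u).fst p a + ∫ r in a..b, (∫ z, (1 - ‖z.2‖ ^ 2) * gk d p r z.1 ∂vA ε u) / r ≤
        th d (vA ε u).fst p b + K * En d ε u * (b / ‖p‖) := by
  have hn : 3 ≤ finrank ℝ E := by omega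
  obtain ⟨K₁, hK₁, hinv⟩ := inv_le hE hd
  obtain ⟨K₂, hK₂, hsq⟩ := B2.gk_sq (E := E) d
  refine ⟨K₂ * K₁, by positivity, fun ε u hε h p a b ha hab hb => ?_⟩
  have hpn : 0 < ‖p‖ := by linarith
  have hEn : 0 ≤ En d ε u := En_nonneg hε
  set C := K₂ * (K₁ * En d ε u / ‖p‖) with hC
  have hC0 : 0 ≤ C := by positivity
  have key := intervalIntegral.integral_le_sub_of_hasDeriv_right_of_le hab
    (g := fun s => th d (vA ε u).fst p s + C * s) (g' := fun s => deriv (th d (vA ε u).fst p) s + C)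
    (fun s hs => by
      obtain ⟨θ', h1, -⟩ := hasDerivAt_th hE hd hε h p (ha.trans_le hs.1)
      exact (h1.continuousAt.add (by fun_prop)).continuousWithinAt)
    (fun s hs => by
      obtain ⟨θ', h1, -⟩ := hasDerivAt_th hE hd hε h p (ha.trans hs.1)
      have := h1.differentiableAt.hasDerivAt.add ((hasDerivAt_id s).const_mul C)
      rw [mul_one] at this
      exact this.hasDerivWithinAt)
    (kap_contOn (d := d) hn hε h p ha b).integrableOn_Icc
    (fun s hs => by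
      have h0 : 0 < s := ha.trans hs.1
      obtain ⟨θ', h1, h2⟩ := hasDerivAt_th hE hd hε h p h0
      rw [h1.deriv]
      have i1 := integ_kap (d := d) hn hε h p h0
      have i2 := (integ_gk_div (d := d) hn hε h p (by positivity : 0 < 2 * s)).const_mul (K₂ * s)
      have h3 := integral_mono_ae (i1.sub i2) (integ_A (d := d) hn hε h p h0)
        ((ae_vA hn hε h).mono fun z hz => by
          have a0 := norm_pos_iff.2 hz.1
          have a1 := gk_pos d p h0 z.1
          have a2 : 1 - ‖z.1 - p‖ / ‖z.1‖ ≤ ⟪p, z.1⟫ / ‖z.1‖ ^ 2 := by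
            have := real_inner_le_norm (z.1 - p) z.1
            rw [inner_sub_left, real_inner_self_eq_norm_sq] at this
            rw [le_div_iff₀ (by positivity)]
            calc _ = ‖z.1‖ ^ 2 - ‖z.1 - p‖ * ‖z.1‖ := by field_simp
              _ ≤ _ := by linarith
          obtain ⟨a3, a4⟩ := kap_bound d p h0 z hz.2.1
          rw [abs_of_nonneg a3, one_mul] at a4
          have a5 : gk d p s z.1 * (‖z.1 - p‖ / ‖z.1‖) ≤ K₂ * s * (gk d p (2 * s) z.1 / ‖z.1‖) := by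
            rw [← mul_div_assoc, ← mul_div_assoc, mul_comm]
            exact div_le_div_of_nonneg_right (hsq p s z.1 h0).2 a0.le
          have a6 := mul_le_mul_of_nonneg_right a4 (by positivity : 0 ≤ ‖z.1 - p‖ / ‖z.1‖)
          have a7 := mul_le_mul_of_nonneg_left a2 a3
          simp only [Pi.sub_apply]
          linarith)
      rw [integral_sub' i1 i2, integral_const_mul, ← integral_fst _ (meas_gk_div d p _)] at h3
      have h4 := mul_le_mul_of_nonneg_left
        (hinv ε u hε h p (2 * s) (by positivity) (norm_pos_iff.1 hpn)) (by positivity : 0 ≤ K₂ * s)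
      rw [div_le_iff₀ h0] at h2 ⊢
      have : (θ' + C) * s = θ' * s + K₂ * s * (K₁ * En d ε u / ‖p‖) := by rw [hC]; ring
      linarith)
  have h1 : K₂ * K₁ * En d ε u * (b / ‖p‖) = C * b := by rw [hC]; ring
  nlinarith [mul_nonneg hC0 ha.le]

/-- `∫κ gk p r` is continuous in `r` (`hasDerivAt_int`), `≥ 0`, and `≥ 2^{-d} ∫κ gk p a` on
`[a, 2a]` (`gk_mono`) -/
theorem kappa_int (hn : 3 ≤ finrank ℝ E) (hε : 0 < ε) (h : Crit ε u) (p : E) {a : ℝ} (ha : 0 < a) :
    (∀ b, a ≤ b → 0 ≤ ∫ r in a..b, (∫ z, (1 - ‖z.2‖ ^ 2) * gk d p r z.1 ∂vA ε u) / r) ∧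
    (∫ z, (1 - ‖z.2‖ ^ 2) * gk d p a z.1 ∂vA ε u) / 2 ^ (d + 1) ≤
      ∫ r in a..(2 * a), (∫ z, (1 - ‖z.2‖ ^ 2) * gk d p r z.1 ∂vA ε u) / r := by
  have h0 : ∀ r, 0 < r → 0 ≤ ∫ z, (1 - ‖z.2‖ ^ 2) * gk d p r z.1 ∂vA ε u := fun r hr =>
    integral_nonneg_of_ae ((ae_vA hn hε h).mono fun z hz => (kap_bound d p hr z hz.2.1).1)
  refine ⟨fun b hab => intervalIntegral.integral_nonneg hab fun r hr =>
    div_nonneg (h0 r (ha.trans_le hr.1)) (ha.le.trans hr.1), ?_⟩
  have hab : a ≤ 2 * a := by linarith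
  have h1 := intervalIntegral.integral_mono_on (μ := volume) hab
    (f := fun _ => (∫ z, (1 - ‖z.2‖ ^ 2) * gk d p a z.1 ∂vA ε u) / 2 ^ (d + 1) / a)
    intervalIntegrable_const
    (((kap_contOn (d := d) hn hε h p ha (2 * a)).mono (uIcc_of_le hab).le).intervalIntegrable)
    fun r hr => by
      have hr0 : 0 < r := ha.trans_le hr.1
      have a1 := integral_mono_ae (integ_kap (d := d) hn hε h p ha)
        ((integ_kap (d := d) hn hε h p hr0).const_mul (2 ^ d)) ((ae_vA hn hε h).mono fun z hz => by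
          have b1 : 0 ≤ 1 - ‖z.2‖ ^ 2 := by nlinarith [norm_nonneg z.2, hz.2.1]
          have b2 : (r / a) ^ d ≤ 2 ^ d := by
            gcongr
            exact (div_le_iff₀ ha).2 hr.2
          have b3 := (gk_mono d p ha hr.1 z.1).trans
            (mul_le_mul_of_nonneg_right b2 (gk_pos d p hr0 _).le)
          simp only
          rw [mul_left_comm]
          exact mul_le_mul_of_nonneg_left b3 b1)
      rw [integral_const_mul] at a1
      have a2 := h0 r hr0
      calc _ ≤ 2 ^ d * (∫ z, (1 - ‖z.2‖ ^ 2) * gk d p r z.1 ∂vA ε u) / 2 ^ (d + 1) / a := by gcongr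
        _ = (∫ z, (1 - ‖z.2‖ ^ 2) * gk d p r z.1 ∂vA ε u) / (2 * a) := by
          field_simp
          ring
        _ ≤ _ := div_le_div_of_nonneg_left a2 hr0 hr.2
  rw [intervalIntegral.integral_const, smul_eq_mul, show 2 * a - a = a by ring,
    mul_div_cancel₀ _ ha.ne'] at h1
  exact h1

end Crest.Agent.R246.B1
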