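import Crest.Agent.R246.B1.Var
import Crest.Agent.R246.B1.Ibp

/-!
# Row 246, block B1: the stress-energy identity
-/

set_option autoImplicit false
set_option linter.unusedSectionVars false

open MeasureTheory Metric Filter Topology Set Module
open scoped RealInnerProductSpace ENNReal ContDiff Real

noncomputable section

namespace Crest.Agent.R246.B1

variable {E : Type} [NormedAddCommGroup E] [InnerProductSpace ℝ E] [FiniteDimensional ℝ E]
  [MeasurableSpace E] [BorelSpace E]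

variable {d : ℕ} {ε : ℝ} {u : E → ℝ}

/-- stress tensor -/
def TT (ε : ℝ) (u : E → ℝ) (a c y : E) : ℝ :=
  ed ε u y * ⟪a, c⟫ - ε * ‖y‖ / sig * (D a u y * D c u y)

theorem sm_norm : Sm fun y : E => ‖y‖ := contDiffOn_id.norm ℝ fun _ hx => hx

theorem sm_norm_inv : Sm fun y : E => ‖y‖⁻¹ :=
  ContDiffOn.inv sm_norm fun _ hx => norm_ne_zero_iff.2 hx

theorem D_norm {y : E} (hy : y ≠ 0) (v : E) : D v (fun x => ‖x‖) y = ⟪y, v⟫ / ‖y‖ := by
  have h1 := D_mul (sm_norm.diff hy) (sm_norm.diff hy) v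
  have h2 := D_norm_sq 0 v y
  simp only [sub_zero, sq] at h2
  have := norm_ne_zero_iff.2 hy
  field_simp
  linarith

theorem D_norm_inv {y : E} (hy : y ≠ 0) (v : E) :
    D v (fun x => ‖x‖⁻¹) y = -(⟪y, v⟫ / ‖y‖ ^ 3) := by
  have h1 := D_mul (sm_norm_inv.diff hy) (sm_norm.diff hy) v
  rw [D_congr (g := fun _ => 1) (fun x hx => inv_mul_cancel₀ (norm_ne_zero_iff.2 hx)) _ hy,
    D_const, D_norm hy] at h1
  have := norm_ne_zero_iff.2 hy
  field_simp at h1 ⊢
  linarith

theorem ed_eq (ε : ℝ) (u : E → ℝ) : ed ε u = fun y => ε / (2 * sig) * (‖y‖ * GG u u y) +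
    1 / (4 * ε * sig) * (‖y‖⁻¹ * ((1 - u y * u y) * (1 - u y * u y))) := by
  ext y
  rw [GG_eq, real_inner_self_eq_norm_sq, ed, W]
  ring

theorem sm_ed (hu : Sm u) : Sm (ed ε u) := by
  rw [ed_eq]
  exact ((sm_const _).mul (sm_norm.mul (sm_GG hu hu))).add
    ((sm_const _).mul (sm_norm_inv.mul ((sm_ff hu).mul (sm_ff hu))))

theorem D_ed (hu : Sm u) {y : E} (hy : y ≠ 0) (c : E) : D c (ed ε u) y =
    ε / (2 * sig) * (⟪y, c⟫ / ‖y‖ * GG u u y + ‖y‖ * (2 * D (gradient u y) (D c u) y)) +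
      1 / (4 * ε * sig) * (-(⟪y, c⟫ / ‖y‖ ^ 3) * ((1 - u y * u y) * (1 - u y * u y)) +
        ‖y‖⁻¹ * (-4 * (1 - u y * u y) * u y * D c u y)) := by
  have hN := sm_GG hu hu
  have hf := sm_ff hu
  rw [ed_eq, D_add (((sm_const _).mul (sm_norm.mul hN)).diff hy)
    (((sm_const _).mul (sm_norm_inv.mul (hf.mul hf))).diff hy),
    D_const_mul ((sm_norm.mul hN).diff hy), D_const_mul ((sm_norm_inv.mul (hf.mul hf)).diff hy),
    D_mul (sm_norm.diff hy) (hN.diff hy), D_mul (sm_norm_inv.diff hy) ((hf.mul hf).diff hy),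
    D_mul (hf.diff hy) (hf.diff hy), D_ff (hu.diff hy), D_norm hy, D_norm_inv hy, D_GG hu hy]
  ring

theorem TT_eq (ε : ℝ) (u : E → ℝ) (a c : E) : TT ε u a c =
    fun y => ⟪a, c⟫ * ed ε u y - ε / sig * (‖y‖ * (D a u y * D c u y)) := by
  ext y
  rw [TT]
  ring

theorem sm_TT (hε : 0 < ε) (h : Crit ε u) (a c : E) : Sm (TT ε u a c) := by
  have hu : Sm u := h.smooth
  rw [TT_eq]
  exact ((sm_const _).mul (sm_ed hu)).sub
    ((sm_const _).mul (sm_norm.mul ((hu.dir _).mul (hu.dir _))))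

theorem TT_smul (h : Crit ε u) (a c : E) :
    ∀ t : ℝ, 0 < t → ∀ y, TT ε u a c (t • y) = t ^ (-1 : ℤ) * TT ε u a c y := by
  intro t ht y
  simp only [TT, ed_smul h ht, hom_D h _ t ht, norm_smul, Real.norm_eq_abs, abs_of_pos ht,
    zpow_neg, zpow_one]
  field_simp

theorem div_TT (hε : 0 < ε) (h : Crit ε u) (c : E) {y : E} (hy : y ≠ 0) :
    ∑ i, D (bs i) (TT ε u (bs i) c) y =
      -(ed ε u y * ((1 - ‖wv ε u y‖ ^ 2) * ⟪c, y⟫ / ‖y‖ ^ 2)) := by
  have hu : Sm u := h.smooth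
  have hn := norm_ne_zero_iff.2 hy
  have hσ := B2.sig_pos.ne'
  have e1 : ∀ i, D (bs i) (TT ε u (bs i) c) y = ⟪bs i, c⟫ * D (bs i) (ed ε u) y -
      ε / sig * (‖y‖⁻¹ * D c u y * (⟪bs i, y⟫ * D (bs i) u y) +
        ‖y‖ * D c u y * D (bs i) (D (bs i) u) y +
        ‖y‖ * (⟪bs i, gradient u y⟫ * D (bs i) (D c u) y)) := fun i => by
    have h1 := (hu.dir (bs i)).mul (hu.dir c)
    rw [TT_eq, D_sub (((sm_const _).mul (sm_ed hu)).diff hy)
      (((sm_const _).mul (sm_norm.mul h1)).diff hy), D_const_mul ((sm_ed hu).diff hy),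
      D_const_mul ((sm_norm.mul h1).diff hy), D_mul (sm_norm.diff hy) (h1.diff hy),
      D_mul ((hu.dir _).diff hy) ((hu.dir _).diff hy), D_norm hy,
      real_inner_comm (gradient u y), inner_gradient, real_inner_comm y]
    ring
  have e2 : ∑ i, D (bs i) (D (bs i) u) y = LL u y := rfl
  simp only [e1, Finset.sum_sub_distrib, Finset.sum_add_distrib, ← Finset.mul_sum, ← D_eq_sum, e2]
  have e3 := ed_mul_inner (u := u) hε y (ContinuousLinearMap.id ℝ E)
  simp only [ContinuousLinearMap.id_apply] at e3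
  rw [real_inner_self_eq_norm_sq, ← GG_eq] at e3
  have e4 := crit_LL h hy
  rw [sub_zero] at e4
  have e5 : LL u y = (u y * u y * u y - u y) / (ε ^ 2 * ‖y‖ ^ 2) := by
    have := hε.ne'
    field_simp
    linarith
  have e6 : ed ε u y * ((1 - ‖wv ε u y‖ ^ 2) * ⟪c, y⟫ / ‖y‖ ^ 2) =
      (ed ε u y - ed ε u y * ‖wv ε u y‖ ^ 2) * ⟪y, c⟫ / ‖y‖ ^ 2 := by
    rw [real_inner_comm]
    ring
  rw [e6, e3, D_ed hu hy, radial h hy, e5, ed_eq]
  have := hε.ne'
  field_simp
  ring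

theorem continuous_divT {X : E → E} (hX : ContDiff ℝ 1 X) : Continuous (divT X) := by
  have h1 : Continuous (fderiv ℝ X) := hX.continuous_fderiv one_ne_zero
  have h2 := continuous_trc (E := E)
  unfold divT
  fun_prop

theorem stress (hn : 3 ≤ finrank ℝ E) (hε : 0 < ε) (h : Crit ε u) (X : E → E) (L r : ℝ)
    (hr : 0 < r) (hX : ContDiff ℝ 1 X) (h0 : ∀ y, ‖X y‖ ≤ L * gk d 0 r y)
    (h1 : ∀ y, ‖fderiv ℝ X y‖ ≤ L * gk d 0 r y) :
    ∫ z, divT X z ∂vA ε u = ∫ z, (1 - ‖z.2‖ ^ 2) * ⟪X z.1, z.1⟫ / ‖z.1‖ ^ 2 ∂vA ε u := by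
  have : Nontrivial E := Module.nontrivial_of_finrank_pos (R := ℝ) (by omega)
  have hXd : Differentiable ℝ X := hX.differentiable one_ne_zero
  have hD : ∀ (a c y : E), D a (fun x => ⟪c, X x⟫) y = ⟪c, fderiv ℝ X y a⟫ := fun a c y => by
    rw [D, fderiv_inner_apply ℝ (differentiableAt_const _) (hXd y)]
    simp
  have key := fun i j : Fin (finrank ℝ E) => ibp_hom (d := d) hn (sm_TT hε h (bs i) (bs j))
    (TT_smul h (bs i) (bs j)) (φ := fun x => ⟪bs j, X x⟫) (contDiff_const.inner ℝ hX) (L := L) hr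
    (fun y => (abs_real_inner_le_norm _ _).trans (by rw [norm_bs, one_mul]; exact h0 y)) (bs i)
    (fun y => by
      rw [hD]
      refine (abs_real_inner_le_norm _ _).trans ?_
      have := (fderiv ℝ X y).le_opNorm (bs i)
      rw [norm_bs] at this ⊢
      linarith [h1 y])
  have hXm : Measurable X := hX.continuous.measurable
  rw [integral_vA' hε h (continuous_divT hX).measurable, integral_vA' hε h (by fun_prop)]
  have e1 : ∀ y, ed ε u y * divT X (y, wv ε u y) =
      ∑ i, ∑ j, TT ε u (bs i) (bs j) y * D (bs i) (fun x => ⟪bs j, X x⟫) y := fun y => by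
    have h2 : ∀ i, ∑ j, TT ε u (bs i) (bs j) y * D (bs i) (fun x => ⟪bs j, X x⟫) y =
        ed ε u y * ⟪bs i, fderiv ℝ X y (bs i)⟫ -
          ε * ‖y‖ / sig * ⟪gradient u y, ⟪bs i, gradient u y⟫ • fderiv ℝ X y (bs i)⟫ := fun i => by
      rw [inner_smul_right, ← sum_inner (bs i) (fderiv ℝ X y (bs i)),
        ← sum_inner (gradient u y) (fderiv ℝ X y (bs i))]
      simp only [Finset.mul_sum, ← Finset.sum_sub_distrib]
      refine Finset.sum_congr rfl fun j _ => ?_
      rw [hD, TT, real_inner_comm (gradient u y), real_inner_comm (gradient u y), inner_gradient,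
        inner_gradient, real_inner_comm (bs i)]
      ring
    simp only [h2, Finset.sum_sub_distrib, ← Finset.mul_sum, ← inner_sum, ← map_smul, ← map_sum,
      sum_bs, ← trc_eq_sum]
    rw [← ed_mul_inner hε, divT]
    ring
  simp only [e1]
  rw [integral_finsetSum _ fun i _ => integrable_finsetSum _ fun j _ => (key i j).1]
  simp only [integral_finsetSum _ fun j _ => (key _ j).1, (key _ _).2.2, Finset.sum_neg_distrib,
    ← integral_finsetSum _ fun j _ => (key _ j).2.1]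
  rw [← integral_finsetSum _ fun i _ => integrable_finsetSum _ fun j _ => (key i j).2.1,
    ← integral_neg]
  refine integral_congr_ae ?_
  filter_upwards [compl_mem_ae_iff.2 (measure_singleton (0 : E))] with y hy
  rw [Finset.sum_comm]
  simp only [← Finset.sum_mul, div_TT hε h _ hy]
  rw [real_inner_comm, ← sum_inner y (X y)]
  simp only [Finset.mul_sum, Finset.sum_div, ← Finset.sum_neg_distrib]
  refine Finset.sum_congr rfl fun j _ => ?_
  ring

end Crest.Agent.R246.B1
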