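import Crest.Agent.R246.B2.Bas
import Crest.Agent.R246.B1.Gk
import Crest.Agent.R246.B1.Modica

/-!
# Row 246, block B1: the diffuse varifold
-/

set_option autoImplicit false
set_option linter.unusedSectionVars false

open MeasureTheory Metric Filter Topology Set Module
open scoped RealInnerProductSpace ENNReal ContDiff Real

noncomputable section

namespace Crest.Agent.R246.B1

variable {E : Type} [NormedAddCommGroup E] [InnerProductSpace ℝ E] [FiniteDimensional ℝ E]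
  [MeasurableSpace E] [BorelSpace E]

variable {d : ℕ} {ε : ℝ} {u : E → ℝ}

theorem W_le {t : ℝ} (h : |t| ≤ 1) : W t ≤ 1 / 4 := by
  have h1 : t ^ 2 ≤ 1 := (sq_le_one_iff_abs_le_one t).2 h
  unfold W
  nlinarith [sq_nonneg t]

theorem ed_zero (ε : ℝ) (u : E → ℝ) : ed ε u 0 = 0 := by
  simp [ed]

theorem grad_le (hn : 3 ≤ finrank ℝ E) (hε : 0 < ε) (h : Crit ε u) (y : E) :
    ε * ‖y‖ * ‖gradient u y‖ ^ 2 / 2 ≤ W (u y) / (ε * ‖y‖) := by
  rcases eq_or_ne y 0 with rfl | hy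
  · simp
  have ha : 0 < ε * ‖y‖ := mul_pos hε (norm_pos_iff.2 hy)
  rw [le_div_iff₀ ha]
  nlinarith [modica hn hε h y]

theorem ed_le (hn : 3 ≤ finrank ℝ E) (hε : 0 < ε) (h : Crit ε u) (y : E) :
    ed ε u y ≤ 2 * W (u y) / (sig * (ε * ‖y‖)) := by
  have h1 := grad_le hn hε h y
  calc _ ≤ (W (u y) / (ε * ‖y‖) + W (u y) / (ε * ‖y‖)) / sig := by
        have := B2.sig_pos
        unfold ed
        gcongr
    _ = _ := by ring

theorem le_ed (hε : 0 < ε) (y : E) : W (u y) / (sig * (ε * ‖y‖)) ≤ ed ε u y := by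
  have := B2.sig_pos
  calc _ = (0 + W (u y) / (ε * ‖y‖)) / sig := by ring
    _ ≤ _ := by
      unfold ed
      gcongr
      positivity

theorem ed_smul (h : Crit ε u) {t : ℝ} (ht : 0 < t) (y : E) : ed ε u (t • y) = t⁻¹ * ed ε u y := by
  have h1 := hom_GG h t ht y
  rw [GG_eq, GG_eq, real_inner_self_eq_norm_sq, real_inner_self_eq_norm_sq, zpow_neg,
    zpow_ofNat] at h1
  rw [ed, ed, h1, h.hom t ht, norm_smul, Real.norm_eq_abs, abs_of_pos ht]
  have e1 : ε * (t * ‖y‖) * ((t ^ 2)⁻¹ * ‖gradient u y‖ ^ 2) =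
      t⁻¹ * (ε * ‖y‖ * ‖gradient u y‖ ^ 2) := by field_simp
  rw [e1]
  ring

theorem ed_mul_inner (hε : 0 < ε) (y : E) (A : E →L[ℝ] E) :
    ed ε u y * ⟪wv ε u y, A (wv ε u y)⟫ = ε * ‖y‖ / sig * ⟪gradient u y, A (gradient u y)⟫ := by
  have hσ := B2.sig_pos
  rcases (B2.ed_nonneg (u := u) hε y).eq_or_lt with h0 | h0
  · have h1 : ε * ‖y‖ * ‖gradient u y‖ ^ 2 = 0 := by
      have h2 : 0 ≤ W (u y) / (ε * ‖y‖) := div_nonneg (B2.W_nonneg _) (by positivity)
      have h3 : 0 ≤ ε * ‖y‖ * ‖gradient u y‖ ^ 2 := by positivity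
      have h4 := h0.symm
      rw [ed, div_eq_zero_iff] at h4
      rcases h4 with h4 | h4
      · linarith
      · exact absurd h4 hσ.ne'
    rw [← h0]
    rcases mul_eq_zero.1 h1 with h1 | h1
    · simp [h1]
    · simp [norm_eq_zero.1 (pow_eq_zero_iff two_ne_zero |>.1 h1)]
  rw [wv, map_smul, inner_smul_left, inner_smul_right, conj_trivial, ← mul_assoc (√_),
    Real.mul_self_sqrt (by positivity)]
  field_simp

theorem norm_wv_le (hn : 3 ≤ finrank ℝ E) (hε : 0 < ε) (h : Crit ε u) (y : E) :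
    ‖wv ε u y‖ ≤ 1 := by
  rcases (B2.ed_nonneg (u := u) hε y).eq_or_lt with h0 | h0
  · simp [wv, ← h0]
  have h1 := ed_mul_inner (u := u) hε y (ContinuousLinearMap.id ℝ E)
  simp only [ContinuousLinearMap.id_apply, real_inner_self_eq_norm_sq] at h1
  have h2 : ε * ‖y‖ / sig * ‖gradient u y‖ ^ 2 ≤ ed ε u y := by
    have h3 := grad_le hn hε h y
    have := B2.sig_pos
    rw [ed, div_mul_eq_mul_div]
    gcongr
    linarith
  have h3 : ‖wv ε u y‖ ^ 2 ≤ 1 := le_of_mul_le_mul_left (by linarith) h0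
  exact (sq_le_one_iff₀ (norm_nonneg _)).1 h3

theorem inner_wv (h : Crit ε u) (y : E) : ⟪wv ε u y, y⟫ = 0 := by
  rcases eq_or_ne y 0 with rfl | hy
  · simp
  rw [wv, inner_smul_left, inner_gradient, radial h hy, mul_zero]

theorem integral_vA' (hε : 0 < ε) (h : Crit ε u) {φ : E × E → ℝ} (hφ : Measurable φ) :
    ∫ z, φ z ∂vA ε u = ∫ y, ed ε u y * φ (y, wv ε u y) := by
  rw [B2.integral_vA h hφ, B2.integral_mu h hε]

theorem ae_vA (hn : 3 ≤ finrank ℝ E) (hε : 0 < ε) (h : Crit ε u) :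
    ∀ᵐ z ∂vA ε u, z.1 ≠ 0 ∧ ‖z.2‖ ≤ 1 ∧ ⟪z.2, z.1⟫ = 0 := by
  rw [vA, ae_map_iff (measurable_id'.prodMk (B2.meas_wv h)).aemeasurable (by measurability),
    ae_withDensity_iff (B2.meas_ed h).ennreal_ofReal]
  refine Eventually.of_forall fun y hy => ⟨?_, norm_wv_le hn hε h y, inner_wv h y⟩
  rintro rfl
  simp [ed_zero] at hy

theorem integrable_mu (hn : 3 ≤ finrank ℝ E) (hε : 0 < ε) (h : Crit ε u) (p : E) {r : ℝ}
    (hr : 0 < r) : Integrable (gk d p r) (vA ε u).fst ∧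
      Integrable (fun y => gk d p r y / ‖y‖) (vA ε u).fst := by
  have hσ := B2.sig_pos
  have hG := (continuous_gk d p r).measurable
  have hm := B2.meas_ed h
  have hb : ∀ y, ed ε u y ≤ 1 / (2 * sig * ε) / ‖y‖ := fun y => by
    refine (ed_le hn hε h y).trans ?_
    calc _ ≤ 2 * (1 / 4) / (sig * (ε * ‖y‖)) := by
          gcongr
          exact W_le (h.abs_le y)
      _ = _ := by ring
  have e1 := B2.mu_eq h
  simp only [B2.mu] at e1
  simp only [e1, integrable_withDensity_iff hm.ennreal_ofReal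
    (Eventually.of_forall fun _ => ENNReal.ofReal_lt_top), ENNReal.toReal_ofReal (B2.ed_nonneg hε _)]
  constructor
  · refine ((integrable_gk_div d p hr (k := 1) (by omega)).const_mul (1 / (2 * sig * ε))).mono'
      (hG.mul hm).aestronglyMeasurable (Eventually.of_forall fun y => ?_)
    have a1 := gk_pos d p hr y
    rw [Real.norm_of_nonneg (mul_nonneg a1.le (B2.ed_nonneg hε y))]
    exact (mul_le_mul_of_nonneg_left (hb y) a1.le).trans (le_of_eq (by ring))
  · refine ((integrable_gk_div d p hr (k := 2) (by omega)).const_mul (1 / (2 * sig * ε))).mono'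
      (Measurable.aestronglyMeasurable (by fun_prop)) (Eventually.of_forall fun y => ?_)
    have a1 : 0 ≤ gk d p r y / ‖y‖ := div_nonneg (gk_pos d p hr y).le (norm_nonneg _)
    rw [Real.norm_of_nonneg (mul_nonneg a1 (B2.ed_nonneg hε y))]
    exact (mul_le_mul_of_nonneg_left (hb y) a1).trans (le_of_eq (by ring))

theorem En_nonneg (hε : 0 < ε) : 0 ≤ En d ε u := by
  exact integral_nonneg fun y => mul_nonneg (gk_pos d 0 one_pos y).le (B2.ed_nonneg hε y)

/-- `integral_comp_smul`, `ed_smul`, `gk_smul` -/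
theorem th_zero (hE : finrank ℝ E = d + 1) (hε : 0 < ε) (h : Crit ε u) {r : ℝ} (hr : 0 < r) :
    th d (vA ε u).fst 0 r = En d ε u := by
  have h1 := Measure.integral_comp_smul volume (fun y => ed ε u y * gk d 0 r y) r
  have h2 : ∀ x, ed ε u (r • x) * gk d 0 r (r • x) = (r ^ (d + 1))⁻¹ * (gk d 0 1 x * ed ε u x) :=
    fun x => by
      have := gk_smul d 0 1 hr x
      rw [smul_zero, mul_one] at this
      rw [this, ed_smul h hr]
      ring
  simp only [h2] at h1
  rw [integral_const_mul, hE, abs_of_pos (by positivity), smul_eq_mul] at h1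
  rw [th, B2.integral_mu h hε]
  exact (mul_left_cancel₀ (by positivity) h1).symm

/-- scaling gives `J r = J 1 / r`; `gk_div_le` gives `J 1 ≤ 4 En + (2/3) J 1` -/
theorem J_le (hE : finrank ℝ E = d + 1) (hd : 2 ≤ d) (hε : 0 < ε) (h : Crit ε u) {r : ℝ}
    (hr : 0 < r) : ∫ y, gk d 0 r y / ‖y‖ ∂(vA ε u).fst ≤ 12 * En d ε u / r := by
  have hn : 3 ≤ finrank ℝ E := by omega
  have hs : ∀ s : ℝ, 0 < s → ∫ y, gk d 0 s y / ‖y‖ ∂(vA ε u).fst =
      (∫ y, gk d 0 1 y / ‖y‖ ∂(vA ε u).fst) / s := fun s hs => by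
    have h1 := Measure.integral_comp_smul volume (fun y => ed ε u y * (gk d 0 s y / ‖y‖)) s
    have h2 : ∀ x, ed ε u (s • x) * (gk d 0 s (s • x) / ‖s • x‖) =
        (s ^ (d + 1))⁻¹ * (ed ε u x * (gk d 0 1 x / ‖x‖) / s) := fun x => by
      have := gk_smul d 0 1 hs x
      rw [smul_zero, mul_one] at this
      rw [this, ed_smul h hs, norm_smul, Real.norm_eq_abs, abs_of_pos hs]
      ring
    simp only [h2] at h1
    rw [integral_const_mul, hE, abs_of_pos (by positivity), smul_eq_mul, integral_div] at h1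
    rw [B2.integral_mu h hε, B2.integral_mu h hε]
    exact (mul_left_cancel₀ (by positivity) h1).symm
  have i1 := (integrable_mu (d := d) hn hε h 0 one_pos).1.const_mul 4
  have i2 := (integrable_mu (d := d) hn hε h 0 (by norm_num : (0 : ℝ) < 1 / 2)).2.const_mul (1 / 3)
  have h1 := integral_mono (integrable_mu (d := d) hn hε h 0 one_pos).2 (i1.add i2) (gk_div_le hd)
  rw [integral_add' i1 i2, integral_const_mul, integral_const_mul, hs (1 / 2) (by norm_num)] at h1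
  have h2 := th_zero hE hε h one_pos
  rw [th] at h2
  rw [hs r hr]
  gcongr
  linarith

/-- On `closedBall z (θ r)`, `θ = τ/4`, `r = ε|z|`: `3|z|/4 ≤ |y| ≤ 5|z|/4`, `|∇u| ≤ 1/r` (Modica,
`2W ≤ 1/2`), so `|u y - u z| ≤ θ` (`Convex.norm_image_sub_le_of_norm_fderiv_le`), `1-u² ≥ τ/2`,
`ed ≥ τ²/(20σr)`, `gk z r ≥ k r^{-d}` (`B2.gk_low`); `c τ = k ω τ² θ^{d+1}/(20σ)`,
`ω = vol(closedBall 0 1)` (`Measure.addHaar_closedBall'`). -/
theorem th_low (hE : finrank ℝ E = d + 1) (hd : 2 ≤ d) : ∃ c : ℝ → ℝ, (∀ τ, 0 < τ → 0 < c τ) ∧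
    ∀ (ε : ℝ) (u : E → ℝ), 0 < ε → Crit ε u → ε ≤ 1 → ∀ τ, 0 < τ → ∀ z, z ≠ 0 →
      τ ≤ 1 - u z ^ 2 → c τ ≤ th d (vA ε u).fst z (ε * ‖z‖) := by
  have hn : 3 ≤ finrank ℝ E := by omega
  obtain ⟨k, hk, hlow⟩ := B2.gk_low (E := E) d 1
  have hσ := B2.sig_pos
  have hω : 0 < (volume : Measure E).real (ball 0 1) :=
    ENNReal.toReal_pos (measure_ball_pos _ _ one_pos).ne' measure_ball_lt_top.ne
  refine ⟨fun τ => τ ^ 2 / (20 * sig) * k * ((τ / 4) ^ (d + 1) * (volume : Measure E).real (ball 0 1)),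
    fun τ hτ => by positivity, fun ε u hε h hε1 τ hτ z hz hτz => ?_⟩
  have hzn := norm_pos_iff.2 hz
  have hτ1 : τ ≤ 1 := by nlinarith [sq_nonneg (u z)]
  set r := ε * ‖z‖ with hr_def
  have hr : 0 < r := by positivity
  have hrz : r ≤ ‖z‖ := by nlinarith
  have b1 : ∀ y ∈ closedBall z (τ / 4 * r), 3 / 4 * ‖z‖ ≤ ‖y‖ ∧ ‖y‖ ≤ 5 / 4 * ‖z‖ := fun y hy => by
    rw [mem_closedBall, dist_eq_norm] at hy
    have : τ / 4 * r ≤ ‖z‖ / 4 := by nlinarith
    exact ⟨by linarith [norm_sub_norm_le z y, norm_sub_rev z y], by linarith [norm_sub_norm_le y z]⟩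
  have b2 : ∀ y ∈ closedBall z (τ / 4 * r), y ≠ 0 := fun y hy =>
    norm_pos_iff.1 (by linarith [(b1 y hy).1])
  have b3 : ∀ y ∈ closedBall z (τ / 4 * r), ‖fderiv ℝ u y‖ ≤ 1 / r := fun y hy => by
    have a1 := modica hn hε h y
    have a2 := W_le (h.abs_le y)
    have a3 : ‖gradient u y‖ = ‖fderiv ℝ u y‖ := by simp [gradient]
    rw [a3] at a1
    have a4 : 3 / 4 * r * ‖fderiv ℝ u y‖ ≤ ε * ‖y‖ * ‖fderiv ℝ u y‖ := by
      refine mul_le_mul_of_nonneg_right ?_ (norm_nonneg _)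
      nlinarith [(b1 y hy).1]
    have a5 : (3 / 4 * r * ‖fderiv ℝ u y‖) ^ 2 ≤ (ε * ‖y‖ * ‖fderiv ℝ u y‖) ^ 2 := by gcongr
    rw [le_div_iff₀ hr]
    nlinarith [mul_nonneg (norm_nonneg (fderiv ℝ u y)) hr.le]
  have b4 : ∀ y ∈ closedBall z (τ / 4 * r),
      τ ^ 2 / (20 * sig * r) * (k * r⁻¹ ^ d) ≤ ed ε u y * gk d z r y := fun y hy => by
    have a1 := (convex_closedBall z (τ / 4 * r)).norm_image_sub_le_of_norm_fderiv_le
      (fun x hx => Sm.diff h.smooth (b2 x hx)) b3 (mem_closedBall_self (by positivity)) hy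
    have a2 : ‖y - z‖ ≤ τ / 4 * r := by simpa [dist_eq_norm] using hy
    have a3 : |u y - u z| ≤ τ / 4 := by
      calc _ ≤ 1 / r * (τ / 4 * r) := a1.trans (by gcongr)
        _ = _ := by field_simp
    have a4 : τ / 2 ≤ 1 - u y ^ 2 := by
      have c1 := abs_le.1 (h.abs_le y)
      have c2 := abs_le.1 (h.abs_le z)
      have c3 : |u y - u z| * |u y + u z| ≤ τ / 4 * 2 :=
        mul_le_mul a3 (abs_le.2 ⟨by linarith, by linarith⟩) (abs_nonneg _) (by positivity)
      rw [← abs_mul] at c3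
      nlinarith [le_abs_self ((u y - u z) * (u y + u z))]
    refine mul_le_mul (le_trans ?_ (le_ed hε y)) (hlow z r y hr (by nlinarith)) (by positivity)
      (B2.ed_nonneg hε y)
    have a5 := norm_pos_iff.2 (b2 y hy)
    calc _ = (τ / 2) ^ 2 / 4 / (sig * (ε * (5 / 4 * ‖z‖))) := by
          rw [hr_def]
          field_simp
          ring
      _ ≤ _ := by
          unfold W
          gcongr
          exact (b1 y hy).2
  have i1 : Integrable fun y => ed ε u y * gk d z r y := by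
    have := (integrable_mu (d := d) hn hε h z hr).1
    have e1 := B2.mu_eq h
    simp only [B2.mu] at e1
    simpa only [e1, integrable_withDensity_iff (B2.meas_ed h).ennreal_ofReal
      (Eventually.of_forall fun _ => ENNReal.ofReal_lt_top),
      ENNReal.toReal_ofReal (B2.ed_nonneg hε _), mul_comm] using this
  have h1 := setIntegral_ge_of_const_le_real measurableSet_closedBall measure_closedBall_lt_top.ne b4
    i1.integrableOn
  rw [th, B2.integral_mu h hε]
  refine le_trans (le_of_eq ?_) (h1.trans (setIntegral_le_integral i1 (Eventually.of_forall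
    fun y => mul_nonneg (B2.ed_nonneg hε y) (gk_pos d z hr y).le)))
  rw [Measure.addHaar_real_closedBall _ _ (by positivity), hE, mul_pow, inv_pow]
  field_simp
  ring

end Crest.Agent.R246.B1
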